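import Vale.Agent.Lib.P254.Moments

/-!
Affine invariance of `L_K`.
-/

open MeasureTheory Set Matrix
open scoped Matrix

namespace Vale.Agent.Lib.P254

variable {ι : Type*} [Fintype ι] [DecidableEq ι]

/-- the affine map `x ↦ M x + q` -/
def affMap (M : Matrix ι ι ℝ) (q : ι → ℝ) : (ι → ℝ) → (ι → ℝ) := fun x => M *ᵥ x + q

theorem affMap_injective {M : Matrix ι ι ℝ} (hM : M.det ≠ 0) (q : ι → ℝ) :
    Function.Injective (affMap M q) := by
  intro x y h
  have h1 : M *ᵥ x = M *ᵥ y := by simpa [affMap] using h
  have hu : IsUnit M.det := isUnit_iff_ne_zero.2 hM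
  have := congrArg (fun v => M⁻¹ *ᵥ v) h1
  simpa [mulVec_mulVec, nonsing_inv_mul _ hu] using this

theorem continuous_affMap (M : Matrix ι ι ℝ) (q : ι → ℝ) : Continuous (affMap M q) := by
  unfold affMap
  fun_prop

theorem integral_image_aff {M : Matrix ι ι ℝ} (hM : M.det ≠ 0) (q : ι → ℝ) {K : Set (ι → ℝ)}
    (hK : MeasurableSet K) (f : (ι → ℝ) → ℝ) :
    ∫ y in affMap M q '' K, f y = |M.det| * ∫ x in K, f (affMap M q x) := by
  have hd : ∀ x ∈ K, HasFDerivWithinAt (affMap M q)
      ((Matrix.toLin' M).toContinuousLinearMap) K x := by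
    intro x _
    have h1 := ((Matrix.toLin' M).toContinuousLinearMap.hasFDerivAt (x := x)).add_const q
    exact h1.hasFDerivWithinAt
  have := integral_image_eq_integral_abs_det_fderiv_smul volume hK hd
    ((affMap_injective hM q).injOn) f
  rw [this]
  simp only [smul_eq_mul]
  have hdet : ((Matrix.toLin' M).toContinuousLinearMap).det = M.det := by
    simp [ContinuousLinearMap.det]
  rw [hdet, integral_const_mul]

theorem vol_image_aff {M : Matrix ι ι ℝ} (hM : M.det ≠ 0) (q : ι → ℝ) {K : Set (ι → ℝ)}
    (hK : MeasurableSet K) : vol (affMap M q '' K) = |M.det| * vol K := by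
  rw [← vol_eq_integral, integral_image_aff hM q hK, vol_eq_integral]

theorem centroid_image_aff {M : Matrix ι ι ℝ} (hM : M.det ≠ 0) (q : ι → ℝ) {K : Set (ι → ℝ)}
    (hK : IsCompact K) (hv : vol K ≠ 0) :
    centroid (affMap M q '' K) = M *ᵥ centroid K + q := by
  have hKm := hK.isClosed.measurableSet
  have habs : |M.det| ≠ 0 := abs_ne_zero.2 hM
  ext i
  have h1 : ∀ x : ι → ℝ, affMap M q x i = ∑ k, M i k * x k + q i := by
    intro x
    simp [affMap, mulVec, dotProduct]
  have i1 : IntegrableOn (fun x : ι → ℝ => ∑ k, M i k * x k) K :=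
    integrableOn_cont hK (by fun_prop)
  have h2 : ∫ x in K, (∑ k, M i k * x k + q i) = (∑ k, M i k * ∫ x in K, x k) + vol K * q i := by
    rw [integral_add i1 (integrableOn_const hK.measure_lt_top.ne),
      integral_finsetSum _ (fun k _ => integrableOn_cont hK (by fun_prop))]
    simp only [integral_const_mul, setIntegral_const, smul_eq_mul]
    rfl
  have h3 : centroid (affMap M q '' K) i =
      ((∑ k, M i k * ∫ x in K, x k) + vol K * q i) / vol K := by
    simp only [centroid]
    rw [integral_image_aff hM q hKm, vol_image_aff hM q hKm]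
    simp_rw [h1]
    rw [h2, mul_div_mul_left _ _ habs]
  rw [h3]
  have h4 : (M *ᵥ centroid K + q) i = ∑ k, M i k * ((∫ x in K, x k) / vol K) + q i := by
    simp [mulVec, dotProduct, centroid]
  rw [h4, add_div, Finset.sum_div]
  congr 1
  · refine Finset.sum_congr rfl (fun k _ => ?_)
    ring
  · field_simp

theorem covMatrix_image_aff {M : Matrix ι ι ℝ} (hM : M.det ≠ 0) (q : ι → ℝ) {K : Set (ι → ℝ)}
    (hK : IsCompact K) (hv : vol K ≠ 0) :
    covMatrix (affMap M q '' K) = M * covMatrix K * Mᵀ := by
  have hKm := hK.isClosed.measurableSet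
  have habs : |M.det| ≠ 0 := abs_ne_zero.2 hM
  ext i j
  have hc := centroid_image_aff hM q hK hv
  have h1 : ∀ (x : ι → ℝ) (i : ι), affMap M q x i - (M *ᵥ centroid K + q) i =
      ∑ k, M i k * (x k - centroid K k) := by
    intro x i
    simp only [affMap, Pi.add_apply, mulVec, dotProduct, mul_sub, Finset.sum_sub_distrib]
    ring
  have h2 : ∀ x : ι → ℝ, (affMap M q x i - (M *ᵥ centroid K + q) i) *
      (affMap M q x j - (M *ᵥ centroid K + q) j) =
      ∑ k, ∑ l, M i k * M j l * ((x k - centroid K k) * (x l - centroid K l)) := by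
    intro x
    rw [h1, h1, Finset.sum_mul_sum]
    refine Finset.sum_congr rfl (fun k _ => Finset.sum_congr rfl (fun l _ => ?_))
    ring
  have hint : ∀ k l, IntegrableOn (fun x : ι → ℝ => M i k * M j l *
      ((x k - centroid K k) * (x l - centroid K l))) K := fun k l =>
    integrableOn_cont hK (by fun_prop)
  have h3 : ∫ x in K, ∑ k, ∑ l, M i k * M j l * ((x k - centroid K k) * (x l - centroid K l)) =
      ∑ k, ∑ l, M i k * M j l * ∫ x in K, (x k - centroid K k) * (x l - centroid K l) := by
    rw [integral_finsetSum _ (fun k _ => integrable_finsetSum _ (fun l _ => hint k l))]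
    refine Finset.sum_congr rfl (fun k _ => ?_)
    rw [integral_finsetSum _ (fun l _ => hint k l)]
    refine Finset.sum_congr rfl (fun l _ => ?_)
    rw [integral_const_mul]
  have h4 : covMatrix (affMap M q '' K) i j =
      (∑ k, ∑ l, M i k * M j l * ∫ x in K, (x k - centroid K k) * (x l - centroid K l)) / vol K := by
    simp only [covMatrix, Matrix.of_apply, hc]
    rw [integral_image_aff hM q hKm, vol_image_aff hM q hKm]
    simp_rw [h2]
    rw [h3, mul_div_mul_left _ _ habs]
  have h5 : (M * covMatrix K * Mᵀ) i j = ∑ k, ∑ l, M i k * M j l * covMatrix K k l := by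
    simp only [Matrix.mul_apply, Matrix.transpose_apply, Finset.sum_mul]
    rw [Finset.sum_comm]
    refine Finset.sum_congr rfl (fun k _ => Finset.sum_congr rfl (fun l _ => ?_))
    ring
  rw [h4, h5, Finset.sum_div]
  refine Finset.sum_congr rfl (fun k _ => ?_)
  rw [Finset.sum_div]
  refine Finset.sum_congr rfl (fun l _ => ?_)
  simp only [covMatrix, Matrix.of_apply]
  ring

/-- `L_K` is invariant under invertible affine maps. -/
theorem isoPower_image_aff {M : Matrix ι ι ℝ} (hM : M.det ≠ 0) (q : ι → ℝ) {K : Set (ι → ℝ)}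
    (hK : IsCompact K) (hv : vol K ≠ 0) : isoPower (affMap M q '' K) = isoPower K := by
  unfold isoPower
  rw [covMatrix_image_aff hM q hK hv, vol_image_aff hM q hK.isClosed.measurableSet, det_mul, det_mul,
    det_transpose, mul_pow, sq_abs]
  field_simp

section reindex

variable {ι' : Type*} [Fintype ι'] [DecidableEq ι']

/-- relabelling of the coordinates -/
noncomputable def relabel (e : ι ≃ ι') : (ι → ℝ) ≃ᵐ (ι' → ℝ) :=
  MeasurableEquiv.piCongrLeft (fun _ => ℝ) e

theorem relabel_apply (e : ι ≃ ι') (x : ι → ℝ) (i : ι) : relabel e x (e i) = x i := by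
  simp [relabel, MeasurableEquiv.piCongrLeft, Equiv.piCongrLeft_apply_apply]

theorem relabel_apply' (e : ι ≃ ι') (x : ι → ℝ) (i' : ι') : relabel e x i' = x (e.symm i') := by
  have := relabel_apply e x (e.symm i')
  simpa using this

theorem relabel_preserving (e : ι ≃ ι') : MeasurePreserving (relabel e) volume volume :=
  volume_measurePreserving_piCongrLeft (fun _ => ℝ) e

theorem integral_image_relabel (e : ι ≃ ι') (K : Set (ι → ℝ)) (f : (ι' → ℝ) → ℝ) :
    ∫ y in relabel e '' K, f y = ∫ x in K, f (relabel e x) := by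
  have h := (relabel_preserving e).setIntegral_preimage_emb
    (relabel e).measurableEmbedding f (relabel e '' K)
  rw [← h, (relabel e).injective.preimage_image]

theorem vol_image_relabel (e : ι ≃ ι') (K : Set (ι → ℝ)) : vol (relabel e '' K) = vol K := by
  rw [← vol_eq_integral, integral_image_relabel, vol_eq_integral]

theorem centroid_image_relabel (e : ι ≃ ι') (K : Set (ι → ℝ)) (i : ι) :
    centroid (relabel e '' K) (e i) = centroid K i := by
  simp only [centroid]
  rw [integral_image_relabel, vol_image_relabel]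
  simp_rw [relabel_apply]

theorem covMatrix_image_relabel (e : ι ≃ ι') (K : Set (ι → ℝ)) (i j : ι) :
    covMatrix (relabel e '' K) (e i) (e j) = covMatrix K i j := by
  simp only [covMatrix, Matrix.of_apply]
  rw [integral_image_relabel, vol_image_relabel]
  simp_rw [relabel_apply, centroid_image_relabel]

theorem isoPower_image_relabel (e : ι ≃ ι') (K : Set (ι → ℝ)) :
    isoPower (relabel e '' K) = isoPower K := by
  unfold isoPower
  rw [vol_image_relabel]
  congr 1
  have : covMatrix K = (covMatrix (relabel e '' K)).submatrix e e := by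
    ext i j
    simp [covMatrix_image_relabel]
  rw [this, det_submatrix_equiv_self]

end reindex

end Vale.Agent.Lib.P254
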