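import Mathlib

/-!
Statement-level definitions for the strong isotropic constant problem.
-/

open MeasureTheory

namespace Vale.Agent.Lib.P254

variable {ι : Type*} [Fintype ι]

/-- The Lebesgue volume `|K|` of a set `K ⊆ ℝ^ι`, as a real number. -/
noncomputable def vol (K : Set (ι → ℝ)) : ℝ := (volume K).toReal

/-- The centroid `b_K = |K|⁻¹ ∫_K x dx`. -/
noncomputable def centroid (K : Set (ι → ℝ)) : ι → ℝ :=
  fun i => (∫ x in K, x i) / vol K

/-- The covariance matrix `Σ_K = |K|⁻¹ ∫_K (x - b_K)(x - b_K)ᵀ dx`. -/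
noncomputable def covMatrix (K : Set (ι → ℝ)) : Matrix ι ι ℝ :=
  Matrix.of fun i j => (∫ x in K, (x i - centroid K i) * (x j - centroid K j)) / vol K

/-- The quantity `L_K^{2n} = det Σ_K / |K|²`, where `n` is the number of coordinates. -/
noncomputable def isoPower [DecidableEq ι] (K : Set (ι → ℝ)) : ℝ :=
  (covMatrix K).det / vol K ^ 2

/-- The isotropic constant `L_K = (det Σ_K / |K|²)^{1/(2n)}`. -/
noncomputable def isoConstant [DecidableEq ι] (K : Set (ι → ℝ)) : ℝ :=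
  isoPower K ^ ((1 : ℝ) / (2 * (Fintype.card ι : ℝ)))

/-- The standard simplex `{x : x ≥ 0, ∑ x_i ≤ 1}` in `ℝ^ι`. -/
def unitSimplex (ι : Type*) [Fintype ι] : Set (ι → ℝ) :=
  {x | (∀ i, 0 ≤ x i) ∧ ∑ i, x i ≤ 1}

end Vale.Agent.Lib.P254
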