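import Mathlib

/-!
A determinant formula for a rank-two update of a block diagonal matrix.
-/

open Matrix
open scoped Matrix

namespace Vale.Agent.Lib.P254

variable {ι κ : Type*} [Fintype ι] [Fintype κ] [DecidableEq ι] [DecidableEq κ]

/-- the block matrix appearing in the covariance of a free sum -/
noncomputable def blockMatrix (S₁ : Matrix ι ι ℝ) (S₂ : Matrix κ κ ℝ) (b₁ : ι → ℝ) (b₂ : κ → ℝ)
    (α β c₁ c₂ c₃ : ℝ) : Matrix (ι ⊕ κ) (ι ⊕ κ) ℝ :=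
  fromBlocks (α • S₁ + c₁ • vecMulVec b₁ b₁) (-c₃ • vecMulVec b₁ b₂)
    (-c₃ • vecMulVec b₂ b₁) (β • S₂ + c₂ • vecMulVec b₂ b₂)

theorem det_blockMatrix {S₁ : Matrix ι ι ℝ} {S₂ : Matrix κ κ ℝ} (h₁ : IsUnit S₁.det)
    (h₂ : IsUnit S₂.det) (b₁ : ι → ℝ) (b₂ : κ → ℝ) {α β : ℝ} (hα : α ≠ 0) (hβ : β ≠ 0)
    (c₁ c₂ c₃ : ℝ) :
    (blockMatrix S₁ S₂ b₁ b₂ α β c₁ c₂ c₃).det =
      α ^ Fintype.card ι * β ^ Fintype.card κ * S₁.det * S₂.det *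
        ((1 + c₁ * (b₁ ⬝ᵥ S₁⁻¹ *ᵥ b₁) / α) * (1 + c₂ * (b₂ ⬝ᵥ S₂⁻¹ *ᵥ b₂) / β) -
          c₃ ^ 2 * (b₁ ⬝ᵥ S₁⁻¹ *ᵥ b₁) * (b₂ ⬝ᵥ S₂⁻¹ *ᵥ b₂) / (α * β)) := by
  set D : Matrix (ι ⊕ κ) (ι ⊕ κ) ℝ := fromBlocks (α • S₁) 0 0 (β • S₂) with hD
  set U : Matrix (ι ⊕ κ) (Fin 2) ℝ := Matrix.of fun z u =>
    Sum.elim (fun i => if u = 0 then b₁ i else 0) (fun j => if u = 1 then b₂ j else 0) z with hU
  set V : Matrix (Fin 2) (ι ⊕ κ) ℝ := Matrix.of fun u z =>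
    Sum.elim (fun i => (if u = 0 then c₁ else -c₃) * b₁ i)
      (fun j => (if u = 0 then -c₃ else c₂) * b₂ j) z with hV
  set W : Matrix (ι ⊕ κ) (ι ⊕ κ) ℝ := fromBlocks (α⁻¹ • S₁⁻¹) 0 0 (β⁻¹ • S₂⁻¹) with hW
  have hdetD : D.det = α ^ Fintype.card ι * β ^ Fintype.card κ * S₁.det * S₂.det := by
    rw [hD, det_fromBlocks_zero₂₁, det_smul, det_smul]
    ring
  have hunitD : IsUnit D.det := by
    rw [hdetD]
    have e1 : IsUnit (α ^ Fintype.card ι) := (isUnit_iff_ne_zero.2 hα).pow _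
    have e2 : IsUnit (β ^ Fintype.card κ) := (isUnit_iff_ne_zero.2 hβ).pow _
    exact ((e1.mul e2).mul h₁).mul h₂
  have hDW : D * W = 1 := by
    rw [hD, hW, fromBlocks_multiply]
    simp only [Matrix.mul_zero, Matrix.zero_mul, add_zero, zero_add]
    rw [smul_mul_smul_comm, smul_mul_smul_comm, mul_inv_cancel₀ hα, mul_inv_cancel₀ hβ, one_smul,
      one_smul, mul_nonsing_inv _ h₁, mul_nonsing_inv _ h₂, fromBlocks_one]
  have hDinv : D⁻¹ = W := inv_eq_right_inv hDW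
  have hsplit : blockMatrix S₁ S₂ b₁ b₂ α β c₁ c₂ c₃ = D + U * V := by
    ext z w
    rcases z with i | j <;> rcases w with k | l <;>
      simp [blockMatrix, hD, hU, hV, Matrix.mul_apply, Fin.sum_univ_two, vecMulVec_apply] <;> ring
  have hX : W * U = Matrix.of fun z u =>
      Sum.elim (fun i => if u = 0 then α⁻¹ * (S₁⁻¹ *ᵥ b₁) i else 0)
        (fun j => if u = 1 then β⁻¹ * (S₂⁻¹ *ᵥ b₂) j else 0) z := by
    ext z u
    rcases z with i | j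
    · fin_cases u <;>
      simp [hW, hU, Matrix.mul_apply, Fintype.sum_sum_type, mulVec, dotProduct, Finset.mul_sum,
        mul_assoc]
    · fin_cases u <;>
      simp [hW, hU, Matrix.mul_apply, Fintype.sum_sum_type, mulVec, dotProduct, Finset.mul_sum,
        mul_assoc]
  have hVX : V * W * U = !![c₁ * (b₁ ⬝ᵥ S₁⁻¹ *ᵥ b₁) / α, -c₃ * (b₂ ⬝ᵥ S₂⁻¹ *ᵥ b₂) / β;
      -c₃ * (b₁ ⬝ᵥ S₁⁻¹ *ᵥ b₁) / α, c₂ * (b₂ ⬝ᵥ S₂⁻¹ *ᵥ b₂) / β] := by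
    rw [Matrix.mul_assoc, hX]
    ext u v
    fin_cases u <;> fin_cases v <;>
    simp [hV, Matrix.mul_apply, Fintype.sum_sum_type, dotProduct, Finset.mul_sum, div_eq_mul_inv,
      mul_assoc, mul_comm, mul_left_comm]
  rw [hsplit, det_add_mul U V hunitD, hdetD, hDinv, hVX]
  congr 1
  rw [det_fin_two]
  simp
  field_simp

end Vale.Agent.Lib.P254
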