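import Vale.Agent.Lib.P254.Radial

/-!
The free sum as a subset of a product, and its integration formula.
-/

open MeasureTheory Set
open scoped Pointwise Nat

namespace Vale.Agent.Lib.P254

theorem hasDerivAt_one_sub_pow (m : ℕ) (s : ℝ) :
    HasDerivAt (fun s : ℝ => (1 - s) ^ (m + 1)) (-(((m : ℝ) + 1) * (1 - s) ^ m)) s := by
  have h1 : HasDerivAt (fun s : ℝ => 1 - s) (-1) s := by
    simpa using (hasDerivAt_id s).const_sub 1
  have h2 := h1.fun_pow (m + 1)
  have h3 : ((m + 1 : ℕ) : ℝ) * (1 - s) ^ (m + 1 - 1) * (-1) = -(((m : ℝ) + 1) * (1 - s) ^ m) := by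
    simp only [Nat.add_sub_cancel]
    push_cast
    ring
  rw [h3] at h2
  exact h2

theorem beta_nat (m e : ℕ) :
    ∫ s in (0 : ℝ)..1, (1 - s) ^ m * s ^ e = (m ! * e ! : ℝ) / ((m + e + 1)! : ℝ) := by
  induction e generalizing m with
  | zero =>
    simp only [pow_zero, mul_one, add_zero, Nat.factorial_zero, Nat.cast_one]
    have : ∫ s in (0 : ℝ)..1, (1 - s) ^ m = 1 / ((m : ℝ) + 1) := by
      rw [intervalIntegral.integral_comp_sub_left (fun s => s ^ m) (1 : ℝ)]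
      simp [integral_pow]
    rw [this, Nat.factorial_succ]
    have : ((m ! : ℕ) : ℝ) ≠ 0 := by exact_mod_cast (Nat.factorial_pos m).ne'
    push_cast
    field_simp
  | succ e ih =>
    have hu : ∀ s ∈ uIcc (0 : ℝ) 1, HasDerivAt (fun s : ℝ => s ^ (e + 1))
        (((e + 1 : ℕ) : ℝ) * s ^ e) s := by
      intro s _
      simpa using hasDerivAt_pow (e + 1) s
    have hv : ∀ s ∈ uIcc (0 : ℝ) 1, HasDerivAt (fun s : ℝ => -((1 - s) ^ (m + 1)) / ((m : ℝ) + 1))
        ((1 - s) ^ m) s := by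
      intro s _
      have hm : ((m : ℝ) + 1) ≠ 0 := by positivity
      have h2 := (hasDerivAt_one_sub_pow m s).neg.div_const ((m : ℝ) + 1)
      have h3 : -(-(((m : ℝ) + 1) * (1 - s) ^ m)) / ((m : ℝ) + 1) = (1 - s) ^ m := by
        field_simp
      rw [h3] at h2
      exact h2
    have hparts := intervalIntegral.integral_mul_deriv_eq_deriv_mul hu hv
      (by apply Continuous.intervalIntegrable; fun_prop)
      (by apply Continuous.intervalIntegrable; fun_prop)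
    have h3 : ∫ s in (0 : ℝ)..1, (1 - s) ^ m * s ^ (e + 1) =
        ∫ s in (0 : ℝ)..1, s ^ (e + 1) * (1 - s) ^ m := by
      congr 1
      ext s
      ring
    rw [h3, hparts]
    have h4 : ∫ s in (0 : ℝ)..1, ((e + 1 : ℕ) : ℝ) * s ^ e * (-((1 - s) ^ (m + 1)) / ((m : ℝ) + 1))
        = -(((e + 1 : ℕ) : ℝ) / ((m : ℝ) + 1)) * ∫ s in (0 : ℝ)..1, (1 - s) ^ (m + 1) * s ^ e := by
      rw [← intervalIntegral.integral_const_mul]
      congr 1
      ext s
      ring
    rw [h4, ih (m + 1)]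
    have hm : ((m : ℝ) + 1) ≠ 0 := by positivity
    have e1 : m + 1 + e + 1 = m + (e + 1) + 1 := by omega
    rw [e1, Nat.factorial_succ m, Nat.factorial_succ e]
    have h5 : ((m + (e + 1) + 1)! : ℝ) ≠ 0 := by exact_mod_cast (Nat.factorial_pos _).ne'
    simp
    field_simp
    try ring

variable {ι κ : Type*}

/-- The free sum of `K₁` and `K₂`, as a subset of the product. -/
def freeSet (K₁ : Set (ι → ℝ)) (K₂ : Set (κ → ℝ)) : Set ((ι → ℝ) × (κ → ℝ)) :=
  {p | ∃ s ∈ Icc (0 : ℝ) 1, p.1 ∈ s • K₁ ∧ p.2 ∈ (1 - s) • K₂}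

theorem isCompact_freeSet [Finite ι] [Finite κ] {K₁ : Set (ι → ℝ)} {K₂ : Set (κ → ℝ)} (h₁ : IsCompact K₁)
    (h₂ : IsCompact K₂) : IsCompact (freeSet K₁ K₂) := by
  have : freeSet K₁ K₂ = (fun q : ℝ × (ι → ℝ) × (κ → ℝ) => (q.1 • q.2.1, (1 - q.1) • q.2.2)) ''
      (Icc (0 : ℝ) 1 ×ˢ K₁ ×ˢ K₂) := by
    ext ⟨x, y⟩
    constructor
    · rintro ⟨s, hs, ⟨a, ha, hax⟩, ⟨b, hb, hby⟩⟩
      refine ⟨(s, a, b), ⟨hs, ha, hb⟩, ?_⟩
      simp only at hax hby ⊢
      rw [hax, hby]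
    · rintro ⟨⟨s, a, b⟩, ⟨hs, ha, hb⟩, h⟩
      simp only [Prod.mk.injEq] at h
      exact ⟨s, hs, ⟨a, ha, h.1⟩, ⟨b, hb, h.2⟩⟩
  rw [this]
  exact (isCompact_Icc.prod (h₁.prod h₂)).image (by fun_prop)

theorem mem_freeSet_iff [Fintype ι] [Fintype κ] {K₁ : Set (ι → ℝ)} {K₂ : Set (κ → ℝ)} (hc₁ : Convex ℝ K₁)
    (h0₁ : (0 : ι → ℝ) ∈ K₁) (h₂ : IsCompact K₂) (hc₂ : Convex ℝ K₂) (h0₂ : (0 : κ → ℝ) ∈ K₂)
    (x : ι → ℝ) (y : κ → ℝ) :
    (x, y) ∈ freeSet K₁ K₂ ↔ y ∈ K₂ ∧ x ∈ (1 - lev K₂ y) • K₁ := by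
  constructor
  · rintro ⟨s, hs, hx, hy⟩
    have hs' : (1 - s) ∈ Icc (0 : ℝ) 1 := ⟨by linarith [hs.2], by linarith [hs.1]⟩
    have hyK : y ∈ K₂ := mem_of_mem_smul hc₂ h0₂ hs' hy
    refine ⟨hyK, ?_⟩
    have hl : lev K₂ y ≤ 1 - s := (mem_smul_iff_lev_le h₂ hc₂ h0₂ hyK hs').1 hy
    exact smul_mem_mono hc₁ h0₁ hs.1 (by linarith) hx
  · rintro ⟨hy, hx⟩
    have hl0 := lev_nonneg h₂ hy
    have hl1 := lev_le_one h₂ hy
    refine ⟨1 - lev K₂ y, ⟨by linarith, by linarith⟩, hx, ?_⟩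
    have : (1 - (1 - lev K₂ y)) = lev K₂ y := by ring
    rw [this]
    exact (lev_mem h₂ hy).2

theorem integral_freeSet [Fintype ι] [Fintype κ] [Nonempty ι] [Nonempty κ] {K₁ : Set (ι → ℝ)} {K₂ : Set (κ → ℝ)}
    (h₁ : IsCompact K₁) (hc₁ : Convex ℝ K₁) (h0₁ : (0 : ι → ℝ) ∈ K₁)
    (h₂ : IsCompact K₂) (hc₂ : Convex ℝ K₂) (h0₂ : (0 : κ → ℝ) ∈ K₂)
    {F : (ι → ℝ) → ℝ} {H : (κ → ℝ) → ℝ} {p q : ℕ} (hF : Homog F p) (hH : Homog H q)
    (hFc : Continuous F) (hHc : Continuous H) :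
    ∫ z in freeSet K₁ K₂, F z.1 * H z.2 =
      (((Fintype.card ι + p)! * (Fintype.card κ + q)! : ℝ) /
        ((Fintype.card ι + p + (Fintype.card κ + q))! : ℝ)) *
        (∫ x in K₁, F x) * (∫ y in K₂, H y) := by
  classical
  set S := freeSet K₁ K₂ with hS
  have hSc : IsCompact S := isCompact_freeSet h₁ h₂
  have hSm : MeasurableSet S := hSc.isClosed.measurableSet
  set m := Fintype.card ι + p with hm
  set e := Fintype.card κ + q with he
  have hm1 : 1 ≤ m := by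
    have : 0 < Fintype.card ι := Fintype.card_pos
    omega
  set f : (ι → ℝ) × (κ → ℝ) → ℝ := fun z => F z.1 * H z.2 with hf
  have hfc : Continuous f := (hFc.comp continuous_fst).mul (hHc.comp continuous_snd)
  have hint : Integrable (S.indicator f) ((volume : Measure (ι → ℝ)).prod (volume : Measure (κ → ℝ))) := by
    have : IntegrableOn f S ((volume : Measure (ι → ℝ)).prod (volume : Measure (κ → ℝ))) :=
      hfc.continuousOn.integrableOn_compact hSc
    exact this.integrable_indicator hSm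
  -- inner integral
  have hinner : ∀ y, ∫ x, S.indicator f (x, y) =
      K₂.indicator (fun y => (∫ x in K₁, F x) * (H y * (1 - lev K₂ y) ^ m)) y := by
    intro y
    by_cases hy : y ∈ K₂
    · rw [indicator_of_mem hy]
      have hl0 := lev_nonneg h₂ hy
      have hl1 := lev_le_one h₂ hy
      have hm' : MeasurableSet ((1 - lev K₂ y) • K₁) := (h₁.smul _).isClosed.measurableSet
      have : (fun x => S.indicator f (x, y)) =
          ((1 - lev K₂ y) • K₁).indicator (fun x => H y * F x) := by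
        ext x
        by_cases hx : x ∈ (1 - lev K₂ y) • K₁
        · rw [indicator_of_mem hx, indicator_of_mem
            ((mem_freeSet_iff hc₁ h0₁ h₂ hc₂ h0₂ x y).2 ⟨hy, hx⟩)]
          simp [hf, mul_comm]
        · rw [indicator_of_notMem hx, indicator_of_notMem]
          exact fun h => hx ((mem_freeSet_iff hc₁ h0₁ h₂ hc₂ h0₂ x y).1 h).2
      rw [this, integral_indicator hm', integral_const_mul,
        setIntegral_smul_Icc hF ⟨0, h0₁⟩ (by linarith)]
      ring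
    · rw [indicator_of_notMem hy]
      have : (fun x => S.indicator f (x, y)) = fun _ => 0 := by
        ext x
        rw [indicator_of_notMem]
        exact fun h => hy ((mem_freeSet_iff hc₁ h0₁ h₂ hc₂ h0₂ x y).1 h).1
      rw [this, integral_zero]
  -- the lifting function
  set ψ : ℝ → ℝ := fun s => (m : ℝ) * (1 - s) ^ (m - 1) with hψ
  have hψc : Continuous ψ := by fun_prop
  have hΨ : ∀ l : ℝ, ∫ s in l..1, ψ s = (1 - l) ^ m := by
    intro l
    have hd : ∀ s ∈ uIcc l 1, HasDerivAt (fun s : ℝ => -((1 - s) ^ m)) (ψ s) s := by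
      intro s _
      obtain ⟨m', hm'⟩ : ∃ m', m = m' + 1 := ⟨m - 1, by omega⟩
      have h2 := (hasDerivAt_one_sub_pow m' s).neg
      have h3 : -(-(((m' : ℝ) + 1) * (1 - s) ^ m')) = ψ s := by
        simp only [hψ]
        rw [hm', Nat.add_sub_cancel]
        push_cast
        ring
      rw [h3] at h2
      rw [hm']
      exact h2
    rw [intervalIntegral.integral_eq_sub_of_hasDerivAt hd (hψc.intervalIntegrable _ _)]
    have : m ≠ 0 := by omega
    simp [this]
  have hlift := radial_lift h₂ hc₂ h0₂ hH hHc hψc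
  simp_rw [hΨ] at hlift
  have hbeta : ∫ s in (0 : ℝ)..1, ψ s * s ^ (Fintype.card κ + q) =
      ((m ! * e ! : ℝ) / ((m + e)! : ℝ)) := by
    have : ∫ s in (0 : ℝ)..1, ψ s * s ^ (Fintype.card κ + q) =
        (m : ℝ) * ∫ s in (0 : ℝ)..1, (1 - s) ^ (m - 1) * s ^ e := by
      rw [← intervalIntegral.integral_const_mul]
      congr 1
      ext s
      simp only [hψ, he]
      ring
    rw [this, beta_nat]
    have e1 : m - 1 + e + 1 = m + e := by omega
    rw [e1]
    obtain ⟨m', hm'⟩ : ∃ m', m = m' + 1 := ⟨m - 1, by omega⟩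
    rw [hm', Nat.add_sub_cancel, Nat.factorial_succ]
    push_cast
    ring
  rw [hbeta] at hlift
  calc ∫ z in S, F z.1 * H z.2
      = ∫ z, S.indicator f z ∂((volume : Measure (ι → ℝ)).prod (volume : Measure (κ → ℝ))) := by
        rw [integral_indicator hSm]
        rfl
    _ = ∫ y, ∫ x, S.indicator f (x, y) := integral_prod_symm _ hint
    _ = ∫ y, K₂.indicator (fun y => (∫ x in K₁, F x) * (H y * (1 - lev K₂ y) ^ m)) y := by
        simp_rw [hinner]
    _ = (∫ x in K₁, F x) * ∫ y in K₂, H y * (1 - lev K₂ y) ^ m := by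
        rw [integral_indicator h₂.isClosed.measurableSet, integral_const_mul]
    _ = _ := by
        rw [hlift]
        ring

end Vale.Agent.Lib.P254
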