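import Vale.Agent.Lib.P254.Defs

/-!
Elementary facts about moments of compact sets.
-/

open MeasureTheory Set
open scoped Matrix

namespace Vale.Agent.Lib.P254

variable {ι : Type*} [Fintype ι]

theorem integrableOn_cont {K : Set (ι → ℝ)} (hK : IsCompact K) {f : (ι → ℝ) → ℝ}
    (hf : Continuous f) : IntegrableOn f K :=
  hf.continuousOn.integrableOn_compact hK

theorem vol_eq_integral (K : Set (ι → ℝ)) : ∫ _x in K, (1 : ℝ) = vol K := by
  simp [vol, Measure.real]

theorem vol_pos {K : Set (ι → ℝ)} (hK : IsCompact K) (hi : (interior K).Nonempty) : 0 < vol K := by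
  refine ENNReal.toReal_pos ?_ hK.measure_lt_top.ne
  have h1 : 0 < volume (interior K) := isOpen_interior.measure_pos _ hi
  exact (lt_of_lt_of_le h1 (measure_mono interior_subset)).ne'

theorem cov_apply {K : Set (ι → ℝ)} (hK : IsCompact K) (hv : vol K ≠ 0) (i j : ι) :
    covMatrix K i j = (∫ x in K, x i * x j) / vol K - centroid K i * centroid K j := by
  have hb : ∀ k, ∫ x in K, x k = centroid K k * vol K := by
    intro k
    simp only [centroid]
    field_simp
  have h1 : ∀ x : ι → ℝ, (x i - centroid K i) * (x j - centroid K j) =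
      x i * x j - centroid K j * x i - centroid K i * x j + centroid K i * centroid K j := by
    intro x
    ring
  simp only [covMatrix, Matrix.of_apply, h1]
  have hxx : IntegrableOn (fun x : ι → ℝ => x i * x j) K := integrableOn_cont hK (by fun_prop)
  have hx : ∀ k (c : ℝ), IntegrableOn (fun x : ι → ℝ => c * x k) K :=
    fun k c => integrableOn_cont hK (by fun_prop)
  rw [integral_add (f := fun x : ι → ℝ => x i * x j - centroid K j * x i - centroid K i * x j)
      (g := fun _ => centroid K i * centroid K j) ((hxx.sub (hx i _)).sub (hx j _))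
      (integrableOn_const (hK.measure_lt_top.ne)),
    integral_sub (f := fun x : ι → ℝ => x i * x j - centroid K j * x i)
      (g := fun x : ι → ℝ => centroid K i * x j) (hxx.sub (hx i _)) (hx j _),
    integral_sub hxx (hx i _),
    integral_const_mul, integral_const_mul, hb i, hb j]
  simp only [setIntegral_const, smul_eq_mul]
  have : (volume.real K) = vol K := rfl
  rw [this]
  field_simp
  ring

theorem dot_centroid {K : Set (ι → ℝ)} (hK : IsCompact K) (θ : ι → ℝ) :
    θ ⬝ᵥ centroid K = (∫ x in K, θ ⬝ᵥ x) / vol K := by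
  simp only [dotProduct, centroid]
  rw [integral_finsetSum _ (fun i _ => integrableOn_cont hK (by fun_prop)), Finset.sum_div]
  refine Finset.sum_congr rfl (fun i _ => ?_)
  rw [integral_const_mul]
  ring

theorem integral_dot_sq {K : Set (ι → ℝ)} (hK : IsCompact K) (θ : ι → ℝ) :
    ∫ x in K, (θ ⬝ᵥ x) ^ 2 = ∑ i, ∑ j, θ i * θ j * ∫ x in K, x i * x j := by
  have h : ∀ x : ι → ℝ, (θ ⬝ᵥ x) ^ 2 = ∑ i, ∑ j, θ i * θ j * (x i * x j) := by
    intro x
    simp only [dotProduct, sq, Finset.sum_mul_sum]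
    refine Finset.sum_congr rfl (fun i _ => Finset.sum_congr rfl (fun j _ => ?_))
    ring
  simp_rw [h]
  rw [integral_finsetSum]
  · refine Finset.sum_congr rfl (fun i _ => ?_)
    rw [integral_finsetSum]
    · refine Finset.sum_congr rfl (fun j _ => ?_)
      rw [integral_const_mul]
    · exact fun j _ => integrableOn_cont hK (by fun_prop)
  · exact fun i _ => integrable_finsetSum _ (fun j _ => integrableOn_cont hK (by fun_prop))

theorem dot_cov_dot {K : Set (ι → ℝ)} (hK : IsCompact K) (hv : vol K ≠ 0) (θ : ι → ℝ) :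
    θ ⬝ᵥ (covMatrix K *ᵥ θ) = (∫ x in K, (θ ⬝ᵥ x) ^ 2) / vol K - (θ ⬝ᵥ centroid K) ^ 2 := by
  have h1 : θ ⬝ᵥ (covMatrix K *ᵥ θ) = ∑ i, ∑ j, θ i * θ j * covMatrix K i j := by
    simp only [dotProduct, Matrix.mulVec, Finset.mul_sum]
    refine Finset.sum_congr rfl (fun i _ => Finset.sum_congr rfl (fun j _ => ?_))
    ring
  have h2 : (θ ⬝ᵥ centroid K) ^ 2 = ∑ i, ∑ j, θ i * θ j * (centroid K i * centroid K j) := by
    simp only [dotProduct, sq, Finset.sum_mul_sum]
    refine Finset.sum_congr rfl (fun i _ => Finset.sum_congr rfl (fun j _ => ?_))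
    ring
  rw [h1, h2, integral_dot_sq hK, Finset.sum_div, ← Finset.sum_sub_distrib]
  refine Finset.sum_congr rfl (fun i _ => ?_)
  rw [Finset.sum_div, ← Finset.sum_sub_distrib]
  refine Finset.sum_congr rfl (fun j _ => ?_)
  rw [cov_apply hK hv]
  ring

theorem dot_cov_dot' {K : Set (ι → ℝ)} (hK : IsCompact K) (hv : vol K ≠ 0) (θ : ι → ℝ) :
    θ ⬝ᵥ (covMatrix K *ᵥ θ) = (∫ x in K, (θ ⬝ᵥ x - θ ⬝ᵥ centroid K) ^ 2) / vol K := by
  rw [dot_cov_dot hK hv]
  have h1 : ∀ x : ι → ℝ, (θ ⬝ᵥ x - θ ⬝ᵥ centroid K) ^ 2 =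
      (θ ⬝ᵥ x) ^ 2 - (2 * θ ⬝ᵥ centroid K) * (θ ⬝ᵥ x) + (θ ⬝ᵥ centroid K) ^ 2 := by
    intro x
    ring
  simp_rw [h1]
  have hc : ∀ v : ι → ℝ, Continuous (fun x : ι → ℝ => v ⬝ᵥ x) := by
    intro v
    simp only [dotProduct]
    fun_prop
  have i1 : IntegrableOn (fun x : ι → ℝ => (θ ⬝ᵥ x) ^ 2) K :=
    integrableOn_cont hK ((hc θ).pow 2)
  have i2 : IntegrableOn (fun x : ι → ℝ => (2 * θ ⬝ᵥ centroid K) * (θ ⬝ᵥ x)) K :=
    integrableOn_cont hK (continuous_const.mul (hc θ))
  have i3 : IntegrableOn (fun x : ι → ℝ => (θ ⬝ᵥ x) ^ 2 - (2 * θ ⬝ᵥ centroid K) * (θ ⬝ᵥ x)) K :=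
    integrableOn_cont hK (((hc θ).pow 2).sub (continuous_const.mul (hc θ)))
  rw [integral_add i3 (integrableOn_const hK.measure_lt_top.ne), integral_sub i1 i2,
    integral_const_mul]
  have h3 : ∫ x in K, θ ⬝ᵥ x = (θ ⬝ᵥ centroid K) * vol K := by
    rw [dot_centroid hK]
    field_simp
  rw [h3]
  simp only [setIntegral_const, smul_eq_mul]
  have : (volume.real K) = vol K := rfl
  rw [this]
  field_simp
  ring

theorem covMatrix_isSymm (K : Set (ι → ℝ)) : (covMatrix K).IsSymm := by
  ext i j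
  simp only [Matrix.transpose_apply, covMatrix, Matrix.of_apply, mul_comm]

theorem covMatrix_posDef {K : Set (ι → ℝ)} (hK : IsCompact K) (hi : (interior K).Nonempty) :
    (covMatrix K).PosDef := by
  have hv := vol_pos hK hi
  refine Matrix.PosDef.of_dotProduct_mulVec_pos ?_ ?_
  · ext i j
    have := congrFun (congrFun (covMatrix_isSymm K) i) j
    simpa [Matrix.conjTranspose_apply] using this
  · intro θ hθ
    simp only [star_trivial]
    rw [dot_cov_dot' hK hv.ne']
    apply div_pos _ hv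
    have hc : Continuous (fun x : ι → ℝ => θ ⬝ᵥ x) := by
      simp only [dotProduct]
      fun_prop
    have hint : IntegrableOn (fun x : ι → ℝ => (θ ⬝ᵥ x - θ ⬝ᵥ centroid K) ^ 2) K :=
      integrableOn_cont hK ((hc.sub continuous_const).pow 2)
    rw [setIntegral_pos_iff_support_of_nonneg_ae (Filter.Eventually.of_forall
      (fun x => sq_nonneg _)) hint]
    -- an open set where the function does not vanish
    obtain ⟨x₀, hx₀⟩ := hi
    obtain ⟨i, hi'⟩ : ∃ i, θ i ≠ 0 := by
      by_contra hcon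
      push Not at hcon
      exact hθ (funext hcon)
    set U : Set (ι → ℝ) := interior K ∩ {x | θ ⬝ᵥ x ≠ θ ⬝ᵥ centroid K} with hU
    have hUo : IsOpen U := isOpen_interior.inter (isOpen_ne_fun hc continuous_const)
    have hUne : U.Nonempty := by
      by_cases h : θ ⬝ᵥ x₀ = θ ⬝ᵥ centroid K
      · -- move slightly in the direction `e_i`
        classical
        have hcont : Continuous (fun t : ℝ => x₀ + t • Pi.single i (1 : ℝ)) := by fun_prop
        have hev : ∀ᶠ t in nhds (0 : ℝ), x₀ + t • (Pi.single i (1 : ℝ) : ι → ℝ) ∈ interior K := by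
          apply hcont.continuousAt.eventually_mem
          simpa using isOpen_interior.mem_nhds hx₀
        have hev2 := (hev.filter_mono (nhdsWithin_le_nhds (s := {0}ᶜ))).and self_mem_nhdsWithin
        obtain ⟨t, ht1, ht2⟩ := hev2.exists
        refine ⟨_, ht1, ?_⟩
        have : θ ⬝ᵥ (x₀ + t • (Pi.single i (1 : ℝ) : ι → ℝ)) = θ ⬝ᵥ x₀ + t * θ i := by
          rw [dotProduct_add, dotProduct_smul, dotProduct_single]
          simp
        simp only [mem_ofPred_eq, this, h]
        intro h3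
        have : t * θ i = 0 := by linarith
        rcases mul_eq_zero.1 this with h4 | h4
        · exact ht2 h4
        · exact hi' h4
      · exact ⟨x₀, hx₀, h⟩
    have hpos : 0 < volume U := hUo.measure_pos _ hUne
    refine lt_of_lt_of_le hpos (measure_mono ?_)
    rintro x ⟨hx1, hx2⟩
    refine ⟨?_, interior_subset hx1⟩
    simp only [Function.mem_support]
    exact pow_ne_zero 2 (sub_ne_zero.2 hx2)

end Vale.Agent.Lib.P254
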