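import Vale.Agent.Lib.P254.FreeSet
import Vale.Agent.Lib.P254.Moments

/-!
The free sum `conv(K₁ × 0 ∪ 0 × K₂)` and its covariance matrix.
-/

open MeasureTheory Set
open scoped Pointwise Nat Matrix

namespace Vale.Agent.Lib.P254

variable {ι κ : Type*} [Fintype ι] [Fintype κ]

/-- The free sum (`ℓ₁`-sum) `conv(K₁ × {0} ∪ {0} × K₂)` of `K₁ ⊆ ℝ^ι` and `K₂ ⊆ ℝ^κ`, a subset of
`ℝ^(ι ⊕ κ)`. -/
def freeSum (K₁ : Set (ι → ℝ)) (K₂ : Set (κ → ℝ)) : Set (ι ⊕ κ → ℝ) :=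
  convexHull ℝ ((fun x : ι → ℝ => (Sum.elim x 0 : ι ⊕ κ → ℝ)) '' K₁ ∪
    (fun y : κ → ℝ => (Sum.elim 0 y : ι ⊕ κ → ℝ)) '' K₂)

/-- the coordinates splitting -/
noncomputable abbrev splitEquiv (ι κ : Type*) [Fintype ι] [Fintype κ] :
    (ι ⊕ κ → ℝ) ≃ᵐ (ι → ℝ) × (κ → ℝ) :=
  MeasurableEquiv.sumPiEquivProdPi (fun _ : ι ⊕ κ => ℝ)

theorem splitEquiv_fst (z : ι ⊕ κ → ℝ) (i : ι) : (splitEquiv ι κ z).1 i = z (Sum.inl i) := rfl
theorem splitEquiv_snd (z : ι ⊕ κ → ℝ) (j : κ) : (splitEquiv ι κ z).2 j = z (Sum.inr j) := rfl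

theorem convex_image_elim_left {K₁ : Set (ι → ℝ)} (hc : Convex ℝ K₁) :
    Convex ℝ ((fun x : ι → ℝ => (Sum.elim x 0 : ι ⊕ κ → ℝ)) '' K₁) := by
  let L : (ι → ℝ) →ₗ[ℝ] (ι ⊕ κ → ℝ) :=
    { toFun := fun x => Sum.elim x 0
      map_add' := by
        intro x y
        ext (i | j) <;> simp
      map_smul' := by
        intro c x
        ext (i | j) <;> simp }
  exact hc.linear_image L

theorem convex_image_elim_right {K₂ : Set (κ → ℝ)} (hc : Convex ℝ K₂) :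
    Convex ℝ ((fun y : κ → ℝ => (Sum.elim 0 y : ι ⊕ κ → ℝ)) '' K₂) := by
  let L : (κ → ℝ) →ₗ[ℝ] (ι ⊕ κ → ℝ) :=
    { toFun := fun y => Sum.elim 0 y
      map_add' := by
        intro x y
        ext (i | j) <;> simp
      map_smul' := by
        intro c x
        ext (i | j) <;> simp }
  exact hc.linear_image L

theorem freeSum_eq_preimage {K₁ : Set (ι → ℝ)} {K₂ : Set (κ → ℝ)} (hc₁ : Convex ℝ K₁)
    (h0₁ : (0 : ι → ℝ) ∈ K₁) (hc₂ : Convex ℝ K₂) (h0₂ : (0 : κ → ℝ) ∈ K₂) :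
    freeSum K₁ K₂ = (splitEquiv ι κ) ⁻¹' (freeSet K₁ K₂) := by
  have hne₁ : ((fun x : ι → ℝ => (Sum.elim x 0 : ι ⊕ κ → ℝ)) '' K₁).Nonempty := ⟨_, 0, h0₁, rfl⟩
  have hne₂ : ((fun y : κ → ℝ => (Sum.elim 0 y : ι ⊕ κ → ℝ)) '' K₂).Nonempty := ⟨_, 0, h0₂, rfl⟩
  unfold freeSum
  rw [convexHull_union hne₁ hne₂, (convex_image_elim_left hc₁).convexHull_eq,
    (convex_image_elim_right hc₂).convexHull_eq]
  ext z
  rw [mem_convexJoin]
  constructor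
  · rintro ⟨_, ⟨x, hx, rfl⟩, _, ⟨y, hy, rfl⟩, α, β, hα, hβ, hαβ, rfl⟩
    refine ⟨α, ⟨hα, by linarith⟩, ⟨x, hx, ?_⟩, ⟨y, hy, ?_⟩⟩
    · ext i
      simp [splitEquiv_fst]
    · have : 1 - α = β := by linarith
      rw [this]
      ext j
      simp [splitEquiv_snd]
  · rintro ⟨s, hs, ⟨x, hx, hxz⟩, ⟨y, hy, hyz⟩⟩
    refine ⟨_, ⟨x, hx, rfl⟩, _, ⟨y, hy, rfl⟩, s, 1 - s, hs.1, by linarith [hs.2], by ring, ?_⟩
    ext (i | j)
    · have := congrFun hxz i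
      simp only [splitEquiv_fst, Pi.smul_apply, smul_eq_mul] at this
      simp [← this]
    · have := congrFun hyz j
      simp only [splitEquiv_snd, Pi.smul_apply, smul_eq_mul] at this
      simp [← this]

theorem isCompact_freeSum {K₁ : Set (ι → ℝ)} {K₂ : Set (κ → ℝ)} (h₁ : IsCompact K₁)
    (hc₁ : Convex ℝ K₁) (h0₁ : (0 : ι → ℝ) ∈ K₁) (h₂ : IsCompact K₂) (hc₂ : Convex ℝ K₂)
    (h0₂ : (0 : κ → ℝ) ∈ K₂) : IsCompact (freeSum K₁ K₂) := by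
  rw [freeSum_eq_preimage hc₁ h0₁ hc₂ h0₂]
  have hh : (splitEquiv ι κ) ⁻¹' (freeSet K₁ K₂) =
      (Homeomorph.sumPiEquivProdPi ι κ (fun _ => ℝ)) ⁻¹' (freeSet K₁ K₂) := rfl
  rw [hh, Homeomorph.isCompact_preimage]
  exact isCompact_freeSet h₁ h₂

/-- The beta-type constant. -/
noncomputable def cc (m e : ℕ) : ℝ := (m ! * e ! : ℝ) / ((m + e)! : ℝ)

theorem cc_pos (m e : ℕ) : 0 < cc m e := by
  unfold cc
  positivity

theorem cc_succ_left (m e : ℕ) :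
    cc (m + 1) e = cc m e * (((m : ℝ) + 1) / ((m : ℝ) + e + 1)) := by
  unfold cc
  have e1 : m + 1 + e = (m + e) + 1 := by omega
  rw [e1, Nat.factorial_succ, Nat.factorial_succ (m + e)]
  have h1 : ((m + e)! : ℝ) ≠ 0 := by exact_mod_cast (Nat.factorial_pos _).ne'
  have h2 : ((m : ℝ) + e + 1) ≠ 0 := by positivity
  push_cast
  field_simp

theorem cc_succ_right (m e : ℕ) :
    cc m (e + 1) = cc m e * (((e : ℝ) + 1) / ((m : ℝ) + e + 1)) := by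
  unfold cc
  have e1 : m + (e + 1) = (m + e) + 1 := by omega
  rw [e1, Nat.factorial_succ, Nat.factorial_succ (m + e)]
  have h1 : ((m + e)! : ℝ) ≠ 0 := by exact_mod_cast (Nat.factorial_pos _).ne'
  have h2 : ((m : ℝ) + e + 1) ≠ 0 := by positivity
  push_cast
  field_simp

/-- integration over a free sum -/
theorem integral_freeSum [Nonempty ι] [Nonempty κ] {K₁ : Set (ι → ℝ)} {K₂ : Set (κ → ℝ)}
    (h₁ : IsCompact K₁) (hc₁ : Convex ℝ K₁) (h0₁ : (0 : ι → ℝ) ∈ K₁)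
    (h₂ : IsCompact K₂) (hc₂ : Convex ℝ K₂) (h0₂ : (0 : κ → ℝ) ∈ K₂)
    {F : (ι → ℝ) → ℝ} {H : (κ → ℝ) → ℝ} {p q : ℕ} (hF : Homog F p) (hH : Homog H q)
    (hFc : Continuous F) (hHc : Continuous H) :
    ∫ z in freeSum K₁ K₂, F (fun i => z (Sum.inl i)) * H (fun j => z (Sum.inr j)) =
      cc (Fintype.card ι + p) (Fintype.card κ + q) * (∫ x in K₁, F x) * (∫ y in K₂, H y) := by
  have hmp := volume_measurePreserving_sumPiEquivProdPi (fun _ : ι ⊕ κ => ℝ)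
  rw [freeSum_eq_preimage hc₁ h0₁ hc₂ h0₂]
  have := hmp.setIntegral_preimage_emb (MeasurableEquiv.measurableEmbedding _)
    (fun z : (ι → ℝ) × (κ → ℝ) => F z.1 * H z.2) (freeSet K₁ K₂)
  rw [integral_freeSet h₁ hc₁ h0₁ h₂ hc₂ h0₂ hF hH hFc hHc] at this
  exact this

theorem homog_one : Homog (fun _ : ι → ℝ => (1 : ℝ)) 0 := by
  intro c _ y
  simp

theorem homog_coord (i : ι) : Homog (fun x : ι → ℝ => x i) 1 := by
  intro c _ y
  simp

theorem homog_coord2 (i k : ι) : Homog (fun x : ι → ℝ => x i * x k) 2 := by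
  intro c _ y
  simp only [Pi.smul_apply, smul_eq_mul]
  ring

section moments

variable [Nonempty ι] [Nonempty κ] {K₁ : Set (ι → ℝ)} {K₂ : Set (κ → ℝ)}
    (h₁ : IsCompact K₁) (hc₁ : Convex ℝ K₁) (h0₁ : (0 : ι → ℝ) ∈ K₁)
    (h₂ : IsCompact K₂) (hc₂ : Convex ℝ K₂) (h0₂ : (0 : κ → ℝ) ∈ K₂)

include h₁ hc₁ h0₁ h₂ hc₂ h0₂

theorem vol_freeSum : vol (freeSum K₁ K₂) =
    cc (Fintype.card ι) (Fintype.card κ) * vol K₁ * vol K₂ := by
  have h := integral_freeSum h₁ hc₁ h0₁ h₂ hc₂ h0₂ homog_one homog_one continuous_const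
    continuous_const
  simp only [mul_one, add_zero, vol_eq_integral] at h
  exact h

theorem mom_inl (i : ι) : ∫ z in freeSum K₁ K₂, z (Sum.inl i) =
    cc (Fintype.card ι + 1) (Fintype.card κ) * (∫ x in K₁, x i) * vol K₂ := by
  have h := integral_freeSum h₁ hc₁ h0₁ h₂ hc₂ h0₂ (homog_coord i) homog_one (by fun_prop)
    continuous_const
  simp only [mul_one, add_zero, vol_eq_integral] at h
  exact h

theorem mom_inr (j : κ) : ∫ z in freeSum K₁ K₂, z (Sum.inr j) =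
    cc (Fintype.card ι) (Fintype.card κ + 1) * vol K₁ * (∫ y in K₂, y j) := by
  have h := integral_freeSum h₁ hc₁ h0₁ h₂ hc₂ h0₂ homog_one (homog_coord j) continuous_const
    (by fun_prop)
  simp only [one_mul, add_zero, vol_eq_integral] at h
  exact h

theorem mom_inl_inl (i k : ι) : ∫ z in freeSum K₁ K₂, z (Sum.inl i) * z (Sum.inl k) =
    cc (Fintype.card ι + 2) (Fintype.card κ) * (∫ x in K₁, x i * x k) * vol K₂ := by
  have h := integral_freeSum h₁ hc₁ h0₁ h₂ hc₂ h0₂ (homog_coord2 i k) homog_one (by fun_prop)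
    continuous_const
  simp only [mul_one, add_zero, vol_eq_integral] at h
  exact h

theorem mom_inr_inr (j l : κ) : ∫ z in freeSum K₁ K₂, z (Sum.inr j) * z (Sum.inr l) =
    cc (Fintype.card ι) (Fintype.card κ + 2) * vol K₁ * (∫ y in K₂, y j * y l) := by
  have h := integral_freeSum h₁ hc₁ h0₁ h₂ hc₂ h0₂ homog_one (homog_coord2 j l) continuous_const
    (by fun_prop)
  simp only [one_mul, add_zero, vol_eq_integral] at h
  exact h

theorem mom_inl_inr (i : ι) (j : κ) : ∫ z in freeSum K₁ K₂, z (Sum.inl i) * z (Sum.inr j) =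
    cc (Fintype.card ι + 1) (Fintype.card κ + 1) * (∫ x in K₁, x i) * (∫ y in K₂, y j) :=
  integral_freeSum h₁ hc₁ h0₁ h₂ hc₂ h0₂ (homog_coord i) (homog_coord j) (by fun_prop)
    (by fun_prop)

omit h₁ hc₁ h0₁ h₂ hc₂ h0₂

variable (hv₁ : vol K₁ ≠ 0) (hv₂ : vol K₂ ≠ 0)
include h₁ hc₁ h0₁ h₂ hc₂ h0₂ hv₁ hv₂

theorem centroid_inl (i : ι) : centroid (freeSum K₁ K₂) (Sum.inl i) =
    (((Fintype.card ι : ℝ) + 1) / ((Fintype.card ι : ℝ) + Fintype.card κ + 1)) * centroid K₁ i := by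
  have hc := cc_pos (Fintype.card ι) (Fintype.card κ)
  simp only [centroid]
  rw [mom_inl h₁ hc₁ h0₁ h₂ hc₂ h0₂, vol_freeSum h₁ hc₁ h0₁ h₂ hc₂ h0₂, cc_succ_left]
  field_simp

theorem centroid_inr (j : κ) : centroid (freeSum K₁ K₂) (Sum.inr j) =
    (((Fintype.card κ : ℝ) + 1) / ((Fintype.card ι : ℝ) + Fintype.card κ + 1)) * centroid K₂ j := by
  have hc := cc_pos (Fintype.card ι) (Fintype.card κ)
  simp only [centroid]
  rw [mom_inr h₁ hc₁ h0₁ h₂ hc₂ h0₂, vol_freeSum h₁ hc₁ h0₁ h₂ hc₂ h0₂, cc_succ_right]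
  field_simp

end moments

end Vale.Agent.Lib.P254
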