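import Vale.Agent.Lib.P254.FreeSum
import Vale.Agent.Lib.P254.DetBlock

/-!
The covariance matrix of a free sum and the exact formula for `L^{2n}`.
-/

open MeasureTheory Set Matrix
open scoped Pointwise Nat Matrix

namespace Vale.Agent.Lib.P254

variable {ι κ : Type*} [Fintype ι] [Fintype κ]

section cov

variable [Nonempty ι] [Nonempty κ] {K₁ : Set (ι → ℝ)} {K₂ : Set (κ → ℝ)}
    (h₁ : IsCompact K₁) (hc₁ : Convex ℝ K₁) (h0₁ : (0 : ι → ℝ) ∈ K₁)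
    (h₂ : IsCompact K₂) (hc₂ : Convex ℝ K₂) (h0₂ : (0 : κ → ℝ) ∈ K₂)
    (hv₁ : vol K₁ ≠ 0) (hv₂ : vol K₂ ≠ 0)

include h₁ hc₁ h0₁ h₂ hc₂ h0₂ hv₁ hv₂

theorem vol_freeSum_ne : vol (freeSum K₁ K₂) ≠ 0 := by
  rw [vol_freeSum h₁ hc₁ h0₁ h₂ hc₂ h0₂]
  have := (cc_pos (Fintype.card ι) (Fintype.card κ)).ne'
  positivity

theorem cov_inl_inl (i k : ι) : covMatrix (freeSum K₁ K₂) (Sum.inl i) (Sum.inl k) =
    ((((Fintype.card ι : ℝ) + 1) * ((Fintype.card ι : ℝ) + 2)) /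
        (((Fintype.card ι : ℝ) + Fintype.card κ + 1) * ((Fintype.card ι : ℝ) + Fintype.card κ + 2))) *
      covMatrix K₁ i k +
    ((((Fintype.card ι : ℝ) + 1) * (Fintype.card κ : ℝ)) /
        (((Fintype.card ι : ℝ) + Fintype.card κ + 1) ^ 2 *
          ((Fintype.card ι : ℝ) + Fintype.card κ + 2))) * (centroid K₁ i * centroid K₁ k) := by
  have hc := (cc_pos (Fintype.card ι) (Fintype.card κ)).ne'
  have hS := isCompact_freeSum h₁ hc₁ h0₁ h₂ hc₂ h0₂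
  have hvS := vol_freeSum_ne h₁ hc₁ h0₁ h₂ hc₂ h0₂ hv₁ hv₂
  rw [cov_apply hS hvS, cov_apply h₁ hv₁, centroid_inl h₁ hc₁ h0₁ h₂ hc₂ h0₂ hv₁ hv₂,
    centroid_inl h₁ hc₁ h0₁ h₂ hc₂ h0₂ hv₁ hv₂, mom_inl_inl h₁ hc₁ h0₁ h₂ hc₂ h0₂,
    vol_freeSum h₁ hc₁ h0₁ h₂ hc₂ h0₂]
  have e2 : Fintype.card ι + 2 = (Fintype.card ι + 1) + 1 := rfl
  rw [e2, cc_succ_left, cc_succ_left]
  push_cast
  set a : ℝ := (Fintype.card ι : ℝ)
  set b : ℝ := (Fintype.card κ : ℝ)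
  have ha : 0 ≤ a := Nat.cast_nonneg _
  have hb : 0 ≤ b := Nat.cast_nonneg _
  have h3 : a + b + 1 ≠ 0 := by positivity
  have h4 : a + 1 + b + 1 ≠ 0 := by positivity
  have h5 : a + b + 2 ≠ 0 := by positivity
  set I := ∫ x in K₁, x i * x k
  field_simp
  ring

theorem cov_inr_inr (j l : κ) : covMatrix (freeSum K₁ K₂) (Sum.inr j) (Sum.inr l) =
    ((((Fintype.card κ : ℝ) + 1) * ((Fintype.card κ : ℝ) + 2)) /
        (((Fintype.card ι : ℝ) + Fintype.card κ + 1) * ((Fintype.card ι : ℝ) + Fintype.card κ + 2))) *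
      covMatrix K₂ j l +
    ((((Fintype.card κ : ℝ) + 1) * (Fintype.card ι : ℝ)) /
        (((Fintype.card ι : ℝ) + Fintype.card κ + 1) ^ 2 *
          ((Fintype.card ι : ℝ) + Fintype.card κ + 2))) * (centroid K₂ j * centroid K₂ l) := by
  have hc := (cc_pos (Fintype.card ι) (Fintype.card κ)).ne'
  have hS := isCompact_freeSum h₁ hc₁ h0₁ h₂ hc₂ h0₂
  have hvS := vol_freeSum_ne h₁ hc₁ h0₁ h₂ hc₂ h0₂ hv₁ hv₂
  rw [cov_apply hS hvS, cov_apply h₂ hv₂, centroid_inr h₁ hc₁ h0₁ h₂ hc₂ h0₂ hv₁ hv₂,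
    centroid_inr h₁ hc₁ h0₁ h₂ hc₂ h0₂ hv₁ hv₂, mom_inr_inr h₁ hc₁ h0₁ h₂ hc₂ h0₂,
    vol_freeSum h₁ hc₁ h0₁ h₂ hc₂ h0₂]
  have e2 : Fintype.card κ + 2 = (Fintype.card κ + 1) + 1 := rfl
  rw [e2, cc_succ_right, cc_succ_right]
  push_cast
  set a : ℝ := (Fintype.card ι : ℝ)
  set b : ℝ := (Fintype.card κ : ℝ)
  have ha : 0 ≤ a := Nat.cast_nonneg _
  have hb : 0 ≤ b := Nat.cast_nonneg _
  have h3 : a + b + 1 ≠ 0 := by positivity
  have h4 : a + (b + 1) + 1 ≠ 0 := by positivity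
  have h5 : a + b + 2 ≠ 0 := by positivity
  set I := ∫ y in K₂, y j * y l
  field_simp
  ring

theorem cov_inl_inr (i : ι) (j : κ) : covMatrix (freeSum K₁ K₂) (Sum.inl i) (Sum.inr j) =
    -(((((Fintype.card ι : ℝ) + 1) * ((Fintype.card κ : ℝ) + 1)) /
        (((Fintype.card ι : ℝ) + Fintype.card κ + 1) ^ 2 *
          ((Fintype.card ι : ℝ) + Fintype.card κ + 2))) * (centroid K₁ i * centroid K₂ j)) := by
  have hc := (cc_pos (Fintype.card ι) (Fintype.card κ)).ne'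
  have hS := isCompact_freeSum h₁ hc₁ h0₁ h₂ hc₂ h0₂
  have hvS := vol_freeSum_ne h₁ hc₁ h0₁ h₂ hc₂ h0₂ hv₁ hv₂
  rw [cov_apply hS hvS, centroid_inl h₁ hc₁ h0₁ h₂ hc₂ h0₂ hv₁ hv₂,
    centroid_inr h₁ hc₁ h0₁ h₂ hc₂ h0₂ hv₁ hv₂, mom_inl_inr h₁ hc₁ h0₁ h₂ hc₂ h0₂,
    vol_freeSum h₁ hc₁ h0₁ h₂ hc₂ h0₂]
  rw [cc_succ_left, cc_succ_right]
  have hbi : ∫ x in K₁, x i = centroid K₁ i * vol K₁ := by
    simp only [centroid]
    field_simp
  have hbj : ∫ y in K₂, y j = centroid K₂ j * vol K₂ := by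
    simp only [centroid]
    field_simp
  rw [hbi, hbj]
  push_cast
  set a : ℝ := (Fintype.card ι : ℝ)
  set b : ℝ := (Fintype.card κ : ℝ)
  have ha : 0 ≤ a := Nat.cast_nonneg _
  have hb : 0 ≤ b := Nat.cast_nonneg _
  have h3 : a + b + 1 ≠ 0 := by positivity
  have h4 : a + (b + 1) + 1 ≠ 0 := by positivity
  have h5 : a + b + 2 ≠ 0 := by positivity
  field_simp
  ring

theorem cov_inr_inl (j : κ) (i : ι) : covMatrix (freeSum K₁ K₂) (Sum.inr j) (Sum.inl i) =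
    -(((((Fintype.card ι : ℝ) + 1) * ((Fintype.card κ : ℝ) + 1)) /
        (((Fintype.card ι : ℝ) + Fintype.card κ + 1) ^ 2 *
          ((Fintype.card ι : ℝ) + Fintype.card κ + 2))) * (centroid K₂ j * centroid K₁ i)) := by
  have := congrFun (congrFun (covMatrix_isSymm (freeSum K₁ K₂)) (Sum.inr j)) (Sum.inl i)
  rw [Matrix.transpose_apply] at this
  rw [← this, cov_inl_inr h₁ hc₁ h0₁ h₂ hc₂ h0₂ hv₁ hv₂]
  ring

/-- **The covariance matrix of a free sum.** -/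
theorem covMatrix_freeSum : covMatrix (freeSum K₁ K₂) =
    blockMatrix (covMatrix K₁) (covMatrix K₂) (centroid K₁) (centroid K₂)
      (((((Fintype.card ι : ℝ) + 1) * ((Fintype.card ι : ℝ) + 2)) /
        (((Fintype.card ι : ℝ) + Fintype.card κ + 1) * ((Fintype.card ι : ℝ) + Fintype.card κ + 2))))
      (((((Fintype.card κ : ℝ) + 1) * ((Fintype.card κ : ℝ) + 2)) /
        (((Fintype.card ι : ℝ) + Fintype.card κ + 1) * ((Fintype.card ι : ℝ) + Fintype.card κ + 2))))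
      (((((Fintype.card ι : ℝ) + 1) * (Fintype.card κ : ℝ)) /
        (((Fintype.card ι : ℝ) + Fintype.card κ + 1) ^ 2 *
          ((Fintype.card ι : ℝ) + Fintype.card κ + 2))))
      (((((Fintype.card κ : ℝ) + 1) * (Fintype.card ι : ℝ)) /
        (((Fintype.card ι : ℝ) + Fintype.card κ + 1) ^ 2 *
          ((Fintype.card ι : ℝ) + Fintype.card κ + 2))))
      (((((Fintype.card ι : ℝ) + 1) * ((Fintype.card κ : ℝ) + 1)) /
        (((Fintype.card ι : ℝ) + Fintype.card κ + 1) ^ 2 *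
          ((Fintype.card ι : ℝ) + Fintype.card κ + 2)))) := by
  ext z w
  rcases z with i | j <;> rcases w with k | l
  · rw [cov_inl_inl h₁ hc₁ h0₁ h₂ hc₂ h0₂ hv₁ hv₂]
    simp [blockMatrix, vecMulVec_apply]
  · rw [cov_inl_inr h₁ hc₁ h0₁ h₂ hc₂ h0₂ hv₁ hv₂]
    simp [blockMatrix, vecMulVec_apply]
  · rw [cov_inr_inl h₁ hc₁ h0₁ h₂ hc₂ h0₂ hv₁ hv₂]
    simp [blockMatrix, vecMulVec_apply]
  · rw [cov_inr_inr h₁ hc₁ h0₁ h₂ hc₂ h0₂ hv₁ hv₂]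
    simp [blockMatrix, vecMulVec_apply]

end cov

/-- The product constant appearing in the formula for free sums. -/
noncomputable def kappa (a b : ℕ) : ℝ :=
  ((((a : ℝ) + 1) * ((a : ℝ) + 2)) / (((a : ℝ) + b + 1) * ((a : ℝ) + b + 2))) ^ a *
    ((((b : ℝ) + 1) * ((b : ℝ) + 2)) / (((a : ℝ) + b + 1) * ((a : ℝ) + b + 2))) ^ b /
      cc a b ^ 2

theorem kappa_pos (a b : ℕ) : 0 < kappa a b := by
  unfold kappa
  have := cc_pos a b
  positivity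

/-- The squared Mahalanobis norm of the centroid, `b_Kᵀ Σ_K⁻¹ b_K`. -/
noncomputable def mahal [DecidableEq ι] (K : Set (ι → ℝ)) : ℝ :=
  centroid K ⬝ᵥ (covMatrix K)⁻¹ *ᵥ centroid K

/-- **Exact formula for free sums.** -/
theorem isoPower_freeSum [DecidableEq ι] [DecidableEq κ] [Nonempty ι] [Nonempty κ]
    {K₁ : Set (ι → ℝ)} {K₂ : Set (κ → ℝ)}
    (h₁ : IsCompact K₁) (hc₁ : Convex ℝ K₁) (h0₁ : (0 : ι → ℝ) ∈ K₁)
    (hi₁ : (interior K₁).Nonempty)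
    (h₂ : IsCompact K₂) (hc₂ : Convex ℝ K₂) (h0₂ : (0 : κ → ℝ) ∈ K₂)
    (hi₂ : (interior K₂).Nonempty) :
    isoPower (freeSum K₁ K₂) = kappa (Fintype.card ι) (Fintype.card κ) *
      (1 + ((Fintype.card κ : ℝ) * (mahal K₁ / ((Fintype.card ι : ℝ) + 2)) +
          (Fintype.card ι : ℝ) * (mahal K₂ / ((Fintype.card κ : ℝ) + 2)) -
          (mahal K₁ / ((Fintype.card ι : ℝ) + 2)) * (mahal K₂ / ((Fintype.card κ : ℝ) + 2))) /
        ((Fintype.card ι : ℝ) + Fintype.card κ + 1)) *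
      isoPower K₁ * isoPower K₂ := by
  have hv₁ := (vol_pos h₁ hi₁).ne'
  have hv₂ := (vol_pos h₂ hi₂).ne'
  have hd₁ : IsUnit (covMatrix K₁).det := (covMatrix_posDef h₁ hi₁).isUnit.map (detMonoidHom)
  have hd₂ : IsUnit (covMatrix K₂).det := (covMatrix_posDef h₂ hi₂).isUnit.map (detMonoidHom)
  have hap : (0 : ℝ) < Fintype.card ι := by exact_mod_cast Fintype.card_pos
  have hbp : (0 : ℝ) < Fintype.card κ := by exact_mod_cast Fintype.card_pos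
  have hα : (((Fintype.card ι : ℝ) + 1) * ((Fintype.card ι : ℝ) + 2)) /
        (((Fintype.card ι : ℝ) + Fintype.card κ + 1) * ((Fintype.card ι : ℝ) + Fintype.card κ + 2))
        ≠ 0 := by positivity
  have hβ : (((Fintype.card κ : ℝ) + 1) * ((Fintype.card κ : ℝ) + 2)) /
        (((Fintype.card ι : ℝ) + Fintype.card κ + 1) * ((Fintype.card ι : ℝ) + Fintype.card κ + 2))
        ≠ 0 := by positivity
  have hc := (cc_pos (Fintype.card ι) (Fintype.card κ)).ne'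
  unfold isoPower
  rw [covMatrix_freeSum h₁ hc₁ h0₁ h₂ hc₂ h0₂ hv₁ hv₂, det_blockMatrix hd₁ hd₂ _ _ hα hβ,
    vol_freeSum h₁ hc₁ h0₁ h₂ hc₂ h0₂]
  unfold kappa mahal
  set r₁ := centroid K₁ ⬝ᵥ (covMatrix K₁)⁻¹ *ᵥ centroid K₁
  set r₂ := centroid K₂ ⬝ᵥ (covMatrix K₂)⁻¹ *ᵥ centroid K₂
  set a : ℝ := (Fintype.card ι : ℝ)
  set b : ℝ := (Fintype.card κ : ℝ)
  set d₁ := (covMatrix K₁).det
  set d₂ := (covMatrix K₂).det
  set P := (((a + 1) * (a + 2)) / ((a + b + 1) * (a + b + 2))) ^ Fintype.card ι *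
    (((b + 1) * (b + 2)) / ((a + b + 1) * (a + b + 2))) ^ Fintype.card κ
  have key : (1 + ((a + 1) * b / ((a + b + 1) ^ 2 * (a + b + 2))) * r₁ /
        (((a + 1) * (a + 2)) / ((a + b + 1) * (a + b + 2)))) *
      (1 + ((b + 1) * a / ((a + b + 1) ^ 2 * (a + b + 2))) * r₂ /
        (((b + 1) * (b + 2)) / ((a + b + 1) * (a + b + 2)))) -
      ((a + 1) * (b + 1) / ((a + b + 1) ^ 2 * (a + b + 2))) ^ 2 * r₁ * r₂ /
        ((((a + 1) * (a + 2)) / ((a + b + 1) * (a + b + 2))) *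
          (((b + 1) * (b + 2)) / ((a + b + 1) * (a + b + 2)))) =
      1 + (b * (r₁ / (a + 2)) + a * (r₂ / (b + 2)) - (r₁ / (a + 2)) * (r₂ / (b + 2))) /
        (a + b + 1) := by
    have h3 : a + b + 1 ≠ 0 := by positivity
    have h5 : a + b + 2 ≠ 0 := by positivity
    field_simp
    ring
  rw [key]
  set Q := 1 + (b * (r₁ / (a + 2)) + a * (r₂ / (b + 2)) - (r₁ / (a + 2)) * (r₂ / (b + 2))) /
        (a + b + 1)
  have hv₁' : vol K₁ ≠ 0 := hv₁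
  have hv₂' : vol K₂ ≠ 0 := hv₂
  field_simp

end Vale.Agent.Lib.P254
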