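import Vale.Agent.Lib.P254.IsoFreeSum

/-!
The elementary bound of Kannan, Lovász and Simonovits: every point of a convex body is at Mahalanobis
distance at most `√(n(n+2))` from the centroid.
-/

open MeasureTheory Set Matrix
open scoped Pointwise Nat Matrix

namespace Vale.Agent.Lib.P254

variable {ι : Type*} [Fintype ι]

section lev_moments

variable [Nonempty ι] {K : Set (ι → ℝ)} (hK : IsCompact K) (hc : Convex ℝ K)
  (h0 : (0 : ι → ℝ) ∈ K)

include hK hc h0

theorem integral_mul_one_sub_lev {H : (ι → ℝ) → ℝ} {q : ℕ} (hH : Homog H q) (hHc : Continuous H) :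
    ∫ y in K, H y * (1 - lev K y) =
      (1 / ((Fintype.card ι : ℝ) + q + 1)) * ∫ y in K, H y := by
  have h := radial_lift hK hc h0 hH hHc (ψ := fun _ => 1) continuous_const
  simp only [intervalIntegral.integral_const, smul_eq_mul, mul_one, one_mul] at h
  rw [h, integral_pow]
  congr 1
  simp

theorem integral_mul_one_sub_lev_sq {H : (ι → ℝ) → ℝ} {q : ℕ} (hH : Homog H q)
    (hHc : Continuous H) :
    ∫ y in K, H y * (1 - lev K y ^ 2) =
      (2 / ((Fintype.card ι : ℝ) + q + 2)) * ∫ y in K, H y := by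
  have hd : ∀ l : ℝ, ∫ s in l..1, 2 * s = 1 - l ^ 2 := by
    intro l
    rw [intervalIntegral.integral_const_mul, integral_id]
    ring
  have h := radial_lift hK hc h0 hH hHc (ψ := fun s => 2 * s) (by fun_prop)
  simp_rw [hd] at h
  rw [h]
  congr 1
  have : ∫ s in (0 : ℝ)..1, 2 * s * s ^ (Fintype.card ι + q) =
      2 * ∫ s in (0 : ℝ)..1, s ^ (Fintype.card ι + q + 1) := by
    rw [← intervalIntegral.integral_const_mul]
    congr 1
    ext s
    ring
  rw [this, integral_pow]
  have hne : ((Fintype.card ι : ℝ) + q + 2) ≠ 0 := by positivity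
  push_cast
  simp only [one_pow, ne_eq, Nat.add_eq_zero_iff, one_ne_zero, and_false, not_false_eq_true,
    zero_pow, sub_zero]
  ring_nf

end lev_moments

open Classical in
/-- The extended level function. -/
noncomputable def levE (K : Set (ι → ℝ)) (y : ι → ℝ) : ℝ := if y ∈ K then lev K y else 1

theorem levE_of_mem {K : Set (ι → ℝ)} {y : ι → ℝ} (hy : y ∈ K) : levE K y = lev K y := by
  classical
  simp [levE, hy]

theorem measurable_levE {K : Set (ι → ℝ)} (hK : IsCompact K) (hc : Convex ℝ K)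
    (h0 : (0 : ι → ℝ) ∈ K) : Measurable (levE K) := by
  classical
  exact measurable_lev' hK hc h0

theorem levE_mem {K : Set (ι → ℝ)} (hK : IsCompact K) (y : ι → ℝ) : levE K y ∈ Icc (0 : ℝ) 1 := by
  classical
  by_cases hy : y ∈ K
  · rw [levE_of_mem hy]
    exact ⟨lev_nonneg hK hy, lev_le_one hK hy⟩
  · simp [levE, hy]

theorem continuous_dot (θ : ι → ℝ) : Continuous (fun x : ι → ℝ => θ ⬝ᵥ x) := by
  simp only [dotProduct]
  fun_prop

theorem homog_dot (θ : ι → ℝ) : Homog (fun x : ι → ℝ => θ ⬝ᵥ x) 1 := by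
  intro c _ y
  simp only [dotProduct_smul, smul_eq_mul, pow_one]

/-- bounded-times-continuous integrability on a compact set -/
theorem integrableOn_mul_levE {K : Set (ι → ℝ)} (hK : IsCompact K) (hc : Convex ℝ K)
    (h0 : (0 : ι → ℝ) ∈ K) {f : (ι → ℝ) → ℝ} (hf : Continuous f) :
    IntegrableOn (fun y => f y * levE K y) K := by
  have h1 : IntegrableOn f K := integrableOn_cont hK hf
  refine Integrable.mul_bdd (c := 1) h1 (measurable_levE hK hc h0).aestronglyMeasurable ?_
  refine Filter.Eventually.of_forall (fun y => ?_)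
  have := levE_mem hK y
  rw [Real.norm_eq_abs, abs_of_nonneg this.1]
  exact this.2

/-- **KLS bound.** For a convex body containing the origin, `(θ·b)² ≤ n(n+2) θᵀΣθ`. -/
theorem kls [Nonempty ι] {K : Set (ι → ℝ)} (hK : IsCompact K) (hc : Convex ℝ K)
    (h0 : (0 : ι → ℝ) ∈ K) (hv : vol K ≠ 0) (θ : ι → ℝ) :
    (θ ⬝ᵥ centroid K) ^ 2 ≤
      ((Fintype.card ι : ℝ) * ((Fintype.card ι : ℝ) + 2)) * (θ ⬝ᵥ (covMatrix K *ᵥ θ)) := by
  have hvpos : 0 < vol K := lt_of_le_of_ne ENNReal.toReal_nonneg hv.symm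
  set a : ℝ := (Fintype.card ι : ℝ) with ha
  have hap : 0 < a := by
    rw [ha]
    exact_mod_cast Fintype.card_pos
  set h : (ι → ℝ) → ℝ := fun x => θ ⬝ᵥ x with hh
  have hhc : Continuous h := continuous_dot θ
  set I₁ := ∫ x in K, h x with hI₁
  set I₂ := ∫ x in K, h x ^ 2 with hI₂
  -- `∫ h g`
  have e1 : ∫ y in K, h y * levE K y = ((a + 1) / (a + 2)) * I₁ := by
    have h1 := integral_mul_one_sub_lev hK hc h0 (homog_dot θ) (continuous_dot θ)
    have h2 : ∫ y in K, h y * (1 - lev K y) = I₁ - ∫ y in K, h y * levE K y := by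
      rw [hI₁, ← integral_sub (integrableOn_cont hK hhc) (integrableOn_mul_levE hK hc h0 hhc)]
      refine setIntegral_congr_fun hK.isClosed.measurableSet (fun y hy => ?_)
      simp only [levE_of_mem hy]
      ring
    rw [h2] at h1
    push_cast at h1
    have h3 : ∫ y in K, h y * levE K y = I₁ - (1 / (a + 1 + 1)) * I₁ := by linarith
    rw [h3]
    have : a + 2 ≠ 0 := by positivity
    have : a + 1 + 1 ≠ 0 := by positivity
    field_simp
    ring
  -- `∫ g²`
  have e2 : ∫ y in K, levE K y ^ 2 = (a / (a + 2)) * vol K := by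
    have h1 := integral_mul_one_sub_lev_sq hK hc h0 homog_one continuous_const
    simp only [one_mul, vol_eq_integral] at h1
    have hg : IntegrableOn (fun y => levE K y ^ 2) K := by
      have := integrableOn_mul_levE hK hc h0 (f := fun _ => (1 : ℝ)) continuous_const
      refine Integrable.mono' (g := fun _ => (1 : ℝ)) (integrableOn_const hK.measure_lt_top.ne)
        ((measurable_levE hK hc h0).pow_const 2).aestronglyMeasurable ?_
      refine Filter.Eventually.of_forall (fun y => ?_)
      have hm := levE_mem hK y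
      rw [Real.norm_eq_abs, abs_of_nonneg (sq_nonneg _)]
      nlinarith [hm.1, hm.2]
    have h2 : ∫ y in K, (1 - lev K y ^ 2) = vol K - ∫ y in K, levE K y ^ 2 := by
      have i0 : IntegrableOn (fun _ : ι → ℝ => (1 : ℝ)) K :=
        integrableOn_cont hK continuous_const
      rw [← vol_eq_integral K, ← integral_sub i0 hg]
      refine setIntegral_congr_fun hK.isClosed.measurableSet (fun y hy => ?_)
      simp only [levE_of_mem hy]
    rw [h2] at h1
    have h3 : ∫ y in K, levE K y ^ 2 = vol K - (2 / (a + (0 : ℕ) + 2)) * vol K := by linarith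
    rw [h3]
    have : a + 2 ≠ 0 := by positivity
    simp only [Nat.cast_zero, add_zero]
    field_simp
    ring
  -- nonnegativity of the square
  have hsq : ∀ τ : ℝ, 0 ≤ I₂ - 2 * τ * (((a + 1) / (a + 2)) * I₁) + τ ^ 2 * ((a / (a + 2)) * vol K) := by
    intro τ
    have hnn : 0 ≤ ∫ y in K, (h y - τ * levE K y) ^ 2 :=
      integral_nonneg (fun y => sq_nonneg _)
    have hexp : ∀ y, (h y - τ * levE K y) ^ 2 =
        h y ^ 2 - 2 * τ * (h y * levE K y) + τ ^ 2 * levE K y ^ 2 := by
      intro y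
      ring
    simp_rw [hexp] at hnn
    have i1 : IntegrableOn (fun y => h y ^ 2) K := integrableOn_cont hK (hhc.pow 2)
    have i2 : IntegrableOn (fun y => h y * levE K y) K := integrableOn_mul_levE hK hc h0 hhc
    have i3 : IntegrableOn (fun y => levE K y ^ 2) K := by
      refine Integrable.mono' (g := fun _ => (1 : ℝ)) (integrableOn_const hK.measure_lt_top.ne)
        ((measurable_levE hK hc h0).pow_const 2).aestronglyMeasurable ?_
      refine Filter.Eventually.of_forall (fun y => ?_)
      have hm := levE_mem hK y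
      rw [Real.norm_eq_abs, abs_of_nonneg (sq_nonneg _)]
      nlinarith [hm.1, hm.2]
    have i12 : IntegrableOn (fun y => h y ^ 2 - 2 * τ * (h y * levE K y)) K :=
      i1.sub (i2.const_mul _)
    have i22 : IntegrableOn (fun y => 2 * τ * (h y * levE K y)) K := i2.const_mul _
    have i32 : IntegrableOn (fun y => τ ^ 2 * levE K y ^ 2) K := i3.const_mul _
    rw [integral_add i12 i32, integral_sub i1 i22, integral_const_mul, integral_const_mul,
      e1, e2] at hnn
    exact hnn
  -- normalise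
  have hb : θ ⬝ᵥ centroid K = I₁ / vol K := dot_centroid hK θ
  rw [dot_cov_dot hK hv, hb]
  set E := I₁ / vol K with hE
  set Q := I₂ / vol K with hQ
  have hI₁' : I₁ = E * vol K := by
    rw [hE]
    field_simp
  have hI₂' : I₂ = Q * vol K := by
    rw [hQ]
    field_simp
  -- choose `τ = (a+1)/a * E`
  have h5 := hsq (((a + 1) / a) * E)
  rw [hI₁', hI₂'] at h5
  have h6 : 0 ≤ vol K * (Q - ((a + 1) ^ 2 / (a * (a + 2))) * E ^ 2) := by
    have : Q * vol K - 2 * ((a + 1) / a * E) * ((a + 1) / (a + 2) * (E * vol K)) +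
        ((a + 1) / a * E) ^ 2 * (a / (a + 2) * vol K) =
        vol K * (Q - ((a + 1) ^ 2 / (a * (a + 2))) * E ^ 2) := by
      have : a + 2 ≠ 0 := by positivity
      field_simp
      ring
    linarith
  have h7 : 0 ≤ Q - ((a + 1) ^ 2 / (a * (a + 2))) * E ^ 2 :=
    nonneg_of_mul_nonneg_right h6 hvpos
  have h8 : ((a + 1) ^ 2 / (a * (a + 2))) * E ^ 2 ≤ Q := by linarith
  have hpos : 0 < a * (a + 2) := by positivity
  rw [div_mul_eq_mul_div, div_le_iff₀ hpos] at h8
  nlinarith

/-- `0 ≤ bᵀΣ⁻¹b ≤ n(n+2)` -/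
theorem mahal_bounds [Nonempty ι] [DecidableEq ι] {K : Set (ι → ℝ)} (hK : IsCompact K)
    (hc : Convex ℝ K) (h0 : (0 : ι → ℝ) ∈ K) (hi : (interior K).Nonempty) :
    0 ≤ mahal K ∧ mahal K ≤ (Fintype.card ι : ℝ) * ((Fintype.card ι : ℝ) + 2) := by
  have hv := (vol_pos hK hi).ne'
  have hpd := covMatrix_posDef hK hi
  have hu : IsUnit (covMatrix K).det := hpd.isUnit.map (detMonoidHom)
  set w := (covMatrix K)⁻¹ *ᵥ centroid K with hw
  have hSw : covMatrix K *ᵥ w = centroid K := by
    rw [hw, mulVec_mulVec, mul_nonsing_inv _ hu, one_mulVec]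
  have hm : mahal K = w ⬝ᵥ (covMatrix K *ᵥ w) := by
    rw [hSw, mahal, ← hw, dotProduct_comm]
  have hnn : 0 ≤ mahal K := by
    rw [hm]
    by_cases hw0 : w = 0
    · simp [hw0]
    · exact (hpd.dotProduct_mulVec_pos hw0).le
  refine ⟨hnn, ?_⟩
  have hk := kls hK hc h0 hv w
  have hwb : w ⬝ᵥ centroid K = mahal K := by
    rw [mahal, ← hw, dotProduct_comm]
  rw [hwb, ← hm] at hk
  rcases hnn.eq_or_lt with h | h
  · rw [← h]
    positivity
  · have : mahal K * mahal K ≤ ((Fintype.card ι : ℝ) * ((Fintype.card ι : ℝ) + 2)) * mahal K := by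
      nlinarith
    exact le_of_mul_le_mul_right this h

end Vale.Agent.Lib.P254
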