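import Vale.Agent.Lib.P254.Defs

/-!
Level sets of a convex body containing the origin; the radial lifting formula.
-/

open MeasureTheory Set
open scoped Pointwise

namespace Vale.Agent.Lib.P254

variable {G : Type*} [NormedAddCommGroup G] [NormedSpace ℝ G]

/-- monotonicity of dilates of a convex set containing `0` -/
theorem smul_mem_mono {K : Set G} (hc : Convex ℝ K) (h0 : (0 : G) ∈ K) {s t : ℝ} (hs : 0 ≤ s)
    (hst : s ≤ t) {y : G} (hy : y ∈ s • K) : y ∈ t • K := by
  rcases hs.eq_or_lt with rfl | hs'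
  · rw [zero_smul_set ⟨0, h0⟩] at hy
    obtain rfl : y = 0 := hy
    exact ⟨0, h0, smul_zero t⟩
  · obtain ⟨x, hx, rfl⟩ := hy
    have ht : 0 < t := lt_of_lt_of_le hs' hst
    refine ⟨(s / t) • x, ?_, ?_⟩
    · have hd : s / t ≤ 1 := (div_le_one ht).2 hst
      have := hc.smul_mem_of_zero_mem h0 hx ⟨by positivity, hd⟩
      simpa using this
    · simp only [smul_smul]
      congr 1
      field_simp

/-- The compact set of pairs `(y, s)` with `s ∈ [0,1]` and `y ∈ s K`. -/
def levelSet (K : Set G) : Set (G × ℝ) := {p | p.2 ∈ Icc (0 : ℝ) 1 ∧ p.1 ∈ p.2 • K}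

theorem isCompact_levelSet {K : Set G} (hK : IsCompact K) : IsCompact (levelSet K) := by
  have : levelSet K = (fun q : G × ℝ => (q.2 • q.1, q.2)) '' (K ×ˢ Icc (0 : ℝ) 1) := by
    ext ⟨y, s⟩
    constructor
    · rintro ⟨hs, x, hx, hxy⟩
      refine ⟨(x, s), ⟨hx, hs⟩, ?_⟩
      simp only at hxy ⊢
      rw [hxy]
    · rintro ⟨⟨x, s'⟩, ⟨hx, hs⟩, h⟩
      simp only [Prod.mk.injEq] at h
      obtain ⟨rfl, rfl⟩ := h
      exact ⟨hs, x, hx, rfl⟩
  rw [this]
  exact (hK.prod isCompact_Icc).image (by fun_prop)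

/-- The level of `y` in `K`: the least `s ∈ [0,1]` with `y ∈ s K`. -/
noncomputable def lev (K : Set G) (y : G) : ℝ := sInf {s | s ∈ Icc (0 : ℝ) 1 ∧ y ∈ s • K}

theorem isCompact_levSet {K : Set G} (hK : IsCompact K) (y : G) :
    IsCompact {s | s ∈ Icc (0 : ℝ) 1 ∧ y ∈ s • K} := by
  have h1 : IsClosed ((fun s : ℝ => (y, s)) ⁻¹' levelSet K) :=
    (isCompact_levelSet hK).isClosed.preimage (by fun_prop)
  have h2 : {s | s ∈ Icc (0 : ℝ) 1 ∧ y ∈ s • K} = (fun s : ℝ => (y, s)) ⁻¹' levelSet K := rfl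
  rw [h2]
  exact isCompact_Icc.of_isClosed_subset h1 (fun s hs => hs.1)

theorem levSet_nonempty {K : Set G} {y : G} (hy : y ∈ K) :
    {s | s ∈ Icc (0 : ℝ) 1 ∧ y ∈ s • K}.Nonempty :=
  ⟨1, ⟨⟨zero_le_one, le_refl _⟩, by simpa using hy⟩⟩

theorem lev_mem {K : Set G} (hK : IsCompact K) {y : G} (hy : y ∈ K) :
    lev K y ∈ {s | s ∈ Icc (0 : ℝ) 1 ∧ y ∈ s • K} :=
  (isCompact_levSet hK y).sInf_mem (levSet_nonempty hy)

theorem lev_nonneg {K : Set G} (hK : IsCompact K) {y : G} (hy : y ∈ K) : 0 ≤ lev K y :=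
  (lev_mem hK hy).1.1

theorem lev_le_one {K : Set G} (hK : IsCompact K) {y : G} (hy : y ∈ K) : lev K y ≤ 1 :=
  (lev_mem hK hy).1.2

/-- `y ∈ s K` iff the level of `y` is at most `s`. -/
theorem mem_smul_iff_lev_le {K : Set G} (hK : IsCompact K) (hc : Convex ℝ K) (h0 : (0 : G) ∈ K)
    {y : G} (hy : y ∈ K) {s : ℝ} (hs : s ∈ Icc (0 : ℝ) 1) : y ∈ s • K ↔ lev K y ≤ s := by
  constructor
  · intro h
    exact csInf_le (isCompact_levSet hK y).bddBelow ⟨hs, h⟩
  · intro h
    exact smul_mem_mono hc h0 (lev_nonneg hK hy) h (lev_mem hK hy).2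

/-- points of a dilate with `s ≤ 1` lie in `K` -/
theorem mem_of_mem_smul {K : Set G} (hc : Convex ℝ K) (h0 : (0 : G) ∈ K) {y : G} {s : ℝ}
    (hs : s ∈ Icc (0 : ℝ) 1) (hy : y ∈ s • K) : y ∈ K := by
  have := smul_mem_mono hc h0 hs.1 hs.2 hy
  simpa using this

open Classical in
/-- The function `lev`, extended by `1` outside `K`, is measurable. -/
theorem measurable_lev' [MeasurableSpace G] [BorelSpace G] {K : Set G} (hK : IsCompact K)
    (hc : Convex ℝ K) (h0 : (0 : G) ∈ K) :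
    Measurable (fun y => if y ∈ K then lev K y else (1 : ℝ)) := by
  refine measurable_of_Iic (fun s => ?_)
  rcases lt_or_ge s 0 with hs | hs
  · convert MeasurableSet.empty using 1
    ext y
    simp only [mem_preimage, mem_Iic, mem_empty_iff_false, iff_false, not_le]
    split_ifs with hy
    · exact lt_of_lt_of_le hs (lev_nonneg hK hy)
    · linarith
  rcases lt_or_ge s 1 with hs1 | hs1
  · have : (fun y => if y ∈ K then lev K y else (1 : ℝ)) ⁻¹' Iic s = s • K := by
      ext y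
      simp only [mem_preimage, mem_Iic]
      constructor
      · intro h
        by_cases hy : y ∈ K
        · rw [if_pos hy] at h
          exact (mem_smul_iff_lev_le hK hc h0 hy ⟨hs, hs1.le⟩).2 h
        · rw [if_neg hy] at h
          linarith
      · intro h
        have hy : y ∈ K := mem_of_mem_smul hc h0 ⟨hs, hs1.le⟩ h
        rw [if_pos hy]
        exact (mem_smul_iff_lev_le hK hc h0 hy ⟨hs, hs1.le⟩).1 h
    rw [this]
    exact (hK.smul s).isClosed.measurableSet
  · convert MeasurableSet.univ using 1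
    ext y
    simp only [mem_preimage, mem_Iic, mem_univ, iff_true]
    split_ifs with hy
    · exact (lev_le_one hK hy).trans hs1
    · exact hs1

end Vale.Agent.Lib.P254
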