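import Vale.Agent.Lib.P254.Simplex

/-!
Free sums versus the simplex: the multiplicative formula.
-/

open MeasureTheory Set Matrix
open scoped Pointwise Nat Matrix

namespace Vale.Agent.Lib.P254

variable {ι κ : Type*} [Fintype ι] [Fintype κ] [DecidableEq ι] [DecidableEq κ]

/-- The translate `K - c`. -/
def transl (K : Set (ι → ℝ)) (c : ι → ℝ) : Set (ι → ℝ) := (fun x => x - c) '' K

omit [DecidableEq ι] in
theorem isCompact_transl {K : Set (ι → ℝ)} (hK : IsCompact K) (c : ι → ℝ) :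
    IsCompact (transl K c) := hK.image (by fun_prop)

omit [DecidableEq ι] [Fintype ι] in
theorem convex_transl {K : Set (ι → ℝ)} (hK : Convex ℝ K) (c : ι → ℝ) : Convex ℝ (transl K c) := by
  have : transl K c = (fun x => (-c) + x) '' K := by
    unfold transl
    congr 1
    ext x i
    simp [sub_eq_add_neg, add_comm]
  rw [this]
  exact hK.translate (-c)

omit [DecidableEq ι] [Fintype ι] in
theorem zero_mem_transl {K : Set (ι → ℝ)} {c : ι → ℝ} (hc : c ∈ K) : (0 : ι → ℝ) ∈ transl K c :=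
  ⟨c, hc, sub_self c⟩

omit [DecidableEq ι] in
theorem interior_transl {K : Set (ι → ℝ)} (hi : (interior K).Nonempty) (c : ι → ℝ) :
    (interior (transl K c)).Nonempty := by
  have : transl K c = (Homeomorph.subRight c) '' K := rfl
  rw [this, ← (Homeomorph.subRight c).image_interior]
  exact hi.image _

theorem transl_eq (K : Set (ι → ℝ)) (c : ι → ℝ) : transl K c = affMap 1 (-c) '' K := by
  unfold transl
  congr 1
  ext x i
  simp [affMap, sub_eq_add_neg]

theorem centroid_transl {K : Set (ι → ℝ)} (hK : IsCompact K) (hv : vol K ≠ 0) (c : ι → ℝ) :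
    centroid (transl K c) = centroid K - c := by
  rw [transl_eq, centroid_image_aff (by simp) _ hK hv]
  ext i
  simp [sub_eq_add_neg]

theorem covMatrix_transl {K : Set (ι → ℝ)} (hK : IsCompact K) (hv : vol K ≠ 0) (c : ι → ℝ) :
    covMatrix (transl K c) = covMatrix K := by
  rw [transl_eq, covMatrix_image_aff (by simp) _ hK hv]
  simp

theorem isoPower_transl {K : Set (ι → ℝ)} (hK : IsCompact K) (hv : vol K ≠ 0) (c : ι → ℝ) :
    isoPower (transl K c) = isoPower K := by
  rw [transl_eq]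
  exact isoPower_image_aff (by simp) _ hK hv

/-- `‖λ‖²` for the barycentric coordinates `(1 - ∑ λᵢ, λ₁, …)` of the point `λ` of the simplex. -/
noncomputable def baryNormSq (l : ι → ℝ) : ℝ := (1 - ∑ i, l i) ^ 2 + ∑ i, l i ^ 2

omit [DecidableEq ι] in
/-- the quadratic form of the explicit inverse -/
theorem dot_covInv_dot [DecidableEq ι] (v : ι → ℝ) :
    v ⬝ᵥ (covInv ι *ᵥ v) = ((Fintype.card ι : ℝ) + 1) * ((Fintype.card ι : ℝ) + 2) *
      (∑ i, v i ^ 2 + (∑ i, v i) ^ 2) := by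
  have h1 : ∀ i, (covInv ι *ᵥ v) i = ((Fintype.card ι : ℝ) + 1) * ((Fintype.card ι : ℝ) + 2) *
      (v i + ∑ j, v j) := by
    intro i
    simp only [mulVec, dotProduct, covInv, Matrix.of_apply]
    have : ∀ j, ((Fintype.card ι : ℝ) + 1) * ((Fintype.card ι : ℝ) + 2) *
        ((if i = j then (1 : ℝ) else 0) + 1) * v j =
        ((Fintype.card ι : ℝ) + 1) * ((Fintype.card ι : ℝ) + 2) *
        ((if i = j then v j else 0) + v j) := by
      intro j
      split_ifs <;> ring
    simp_rw [this, ← Finset.mul_sum]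
    rw [Finset.sum_add_distrib]
    simp
  simp only [dotProduct, h1]
  have h2 : ∀ i, v i * (((Fintype.card ι : ℝ) + 1) * ((Fintype.card ι : ℝ) + 2) *
      (v i + ∑ j, v j)) = ((Fintype.card ι : ℝ) + 1) * ((Fintype.card ι : ℝ) + 2) *
      (v i ^ 2 + v i * ∑ j, v j) := by
    intro i
    ring
  simp_rw [h2, ← Finset.mul_sum]
  rw [Finset.sum_add_distrib, ← Finset.sum_mul, sq (∑ i, v i)]

theorem mahal_transl_unitSimplex [Nonempty ι] (l : ι → ℝ) :
    mahal (transl (unitSimplex ι) l) / ((Fintype.card ι : ℝ) + 2) =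
      ((Fintype.card ι : ℝ) + 1) * baryNormSq l - 1 := by
  have hK := isCompact_unitSimplex (ι := ι)
  have hv := (vol_unitSimplex_pos (ι := ι)).ne'
  unfold mahal
  rw [covMatrix_transl hK hv, centroid_transl hK hv, covInv_eq, dot_covInv_dot]
  have hc : ∀ i, (centroid (unitSimplex ι) - l) i = 1 / ((Fintype.card ι : ℝ) + 1) - l i := by
    intro i
    simp [centroid_unitSimplex]
  simp_rw [hc]
  unfold baryNormSq
  have h3 : ((Fintype.card ι : ℝ) + 1) ≠ 0 := by positivity
  have h4 : ((Fintype.card ι : ℝ) + 2) ≠ 0 := by positivity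
  set a : ℝ := (Fintype.card ι : ℝ)
  set β : ℝ := 1 / (a + 1) with hβ
  have e1 : ∑ i, (β - l i) = a * β - ∑ i, l i := by
    rw [Finset.sum_sub_distrib]
    simp [a]
  have e2 : ∑ i, (β - l i) ^ 2 = a * β ^ 2 - 2 * β * ∑ i, l i + ∑ i, l i ^ 2 := by
    have : ∀ i, (β - l i) ^ 2 = β ^ 2 - 2 * β * l i + l i ^ 2 := by
      intro i
      ring
    simp_rw [this]
    rw [Finset.sum_add_distrib, Finset.sum_sub_distrib, ← Finset.mul_sum]
    simp [a]
  rw [e1, e2]
  have hβ' : β * (a + 1) = 1 := by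
    rw [hβ]
    field_simp
  field_simp
  have hβ2 : a * β = 1 - β := by linarith
  set S := ∑ i, l i
  set T := ∑ i, l i ^ 2
  have : (a + 1) * ((a * β ^ 2 - 2 * β * S + T) + (a * β - S) ^ 2) =
      (a + 1) * ((1 - S) ^ 2 + T) - 1 := by
    have h5 : (a * β - S) ^ 2 = (1 - β - S) ^ 2 := by rw [hβ2]
    have h6 : a * β ^ 2 = (1 - β) * β := by
      rw [← hβ2]
      ring
    rw [h5, h6]
    have h7 : (a + 1) * ((1 - β) * β - 2 * β * S + T + (1 - β - S) ^ 2) =
        (a + 1) * ((1 - S) ^ 2 + T) + (β * (a + 1)) * (-β * 1 + 1 - 2 * S - 2 + 2 * S + β) := by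
      ring
    rw [h7, hβ']
    ring
  linarith

theorem mahal_unitSimplex [Nonempty ι] :
    mahal (unitSimplex ι) / ((Fintype.card ι : ℝ) + 2) = (Fintype.card ι : ℝ) := by
  have h := mahal_transl_unitSimplex (ι := ι) 0
  have h0 : transl (unitSimplex ι) 0 = unitSimplex ι := by
    unfold transl
    simp
  rw [h0] at h
  rw [h]
  simp [baryNormSq]

theorem freeSum_unitSimplex :
    freeSum (unitSimplex ι) (unitSimplex κ) = unitSimplex (ι ⊕ κ) := by
  rw [freeSum_eq_preimage convex_unitSimplex zero_mem_unitSimplex convex_unitSimplex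
    zero_mem_unitSimplex]
  ext z
  simp only [mem_preimage]
  constructor
  · rintro ⟨s, hs, hx, hy⟩
    have h1 := (mem_smul_unitSimplex hs.1).1 hx
    have h2 := (mem_smul_unitSimplex (by linarith [hs.2] : 0 ≤ 1 - s)).1 hy
    refine ⟨?_, ?_⟩
    · rintro (i | j)
      · exact h1.1 i
      · exact h2.1 j
    · rw [Fintype.sum_sum_type]
      have e1 := h1.2
      have e2 := h2.2
      simp only [splitEquiv_fst, splitEquiv_snd] at e1 e2
      linarith
  · intro hz
    have hsum := hz.2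
    rw [Fintype.sum_sum_type] at hsum
    have h0 : 0 ≤ ∑ i, z (Sum.inl i) := Finset.sum_nonneg (fun i _ => hz.1 _)
    have h0' : 0 ≤ ∑ j, z (Sum.inr j) := Finset.sum_nonneg (fun i _ => hz.1 _)
    refine ⟨∑ i, z (Sum.inl i), ⟨h0, by linarith⟩, ?_, ?_⟩
    · exact (mem_smul_unitSimplex h0).2 ⟨fun i => hz.1 _, le_refl _⟩
    · exact (mem_smul_unitSimplex (by linarith)).2 ⟨fun j => hz.1 _, by
        simp only [splitEquiv_snd]
        linarith⟩

omit [DecidableEq ι] in
theorem isoPower_pos [DecidableEq ι] {K : Set (ι → ℝ)} (hK : IsCompact K)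
    (hi : (interior K).Nonempty) : 0 < isoPower K := by
  unfold isoPower
  have h1 := (covMatrix_posDef hK hi).det_pos
  have h2 := vol_pos hK hi
  positivity

/-- relation between simplices of dimensions `a`, `b` and `a + b` -/
theorem isoPower_unitSimplex_sum [Nonempty ι] [Nonempty κ] :
    isoPower (unitSimplex (ι ⊕ κ)) = kappa (Fintype.card ι) (Fintype.card κ) *
      (1 + ((Fintype.card ι : ℝ) * Fintype.card κ) / ((Fintype.card ι : ℝ) + Fintype.card κ + 1)) *
      isoPower (unitSimplex ι) * isoPower (unitSimplex κ) := by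
  rw [← freeSum_unitSimplex, isoPower_freeSum isCompact_unitSimplex convex_unitSimplex
    zero_mem_unitSimplex interior_unitSimplex_nonempty isCompact_unitSimplex convex_unitSimplex
    zero_mem_unitSimplex interior_unitSimplex_nonempty, mahal_unitSimplex, mahal_unitSimplex]
  congr 3
  ring

/-- **The multiplicative formula for free sums.** -/
theorem isoRatio_freeSum [Nonempty ι] [Nonempty κ] {K₁ : Set (ι → ℝ)} {K₂ : Set (κ → ℝ)}
    (h₁ : IsCompact K₁) (hc₁ : Convex ℝ K₁) (h0₁ : (0 : ι → ℝ) ∈ K₁)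
    (hi₁ : (interior K₁).Nonempty)
    (h₂ : IsCompact K₂) (hc₂ : Convex ℝ K₂) (h0₂ : (0 : κ → ℝ) ∈ K₂)
    (hi₂ : (interior K₂).Nonempty) :
    isoPower (freeSum K₁ K₂) / isoPower (unitSimplex (ι ⊕ κ)) =
      (isoPower K₁ / isoPower (unitSimplex ι)) * (isoPower K₂ / isoPower (unitSimplex κ)) *
      (1 - ((Fintype.card ι : ℝ) - mahal K₁ / ((Fintype.card ι : ℝ) + 2)) *
          ((Fintype.card κ : ℝ) - mahal K₂ / ((Fintype.card κ : ℝ) + 2)) /
          (((Fintype.card ι : ℝ) + 1) * ((Fintype.card κ : ℝ) + 1))) := by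
  rw [isoPower_unitSimplex_sum, isoPower_freeSum h₁ hc₁ h0₁ hi₁ h₂ hc₂ h0₂ hi₂]
  have hk := (kappa_pos (Fintype.card ι) (Fintype.card κ)).ne'
  have hs₁ := (isoPower_pos (isCompact_unitSimplex (ι := ι)) interior_unitSimplex_nonempty).ne'
  have hs₂ := (isoPower_pos (isCompact_unitSimplex (ι := κ)) interior_unitSimplex_nonempty).ne'
  set R₁ := mahal K₁ / ((Fintype.card ι : ℝ) + 2)
  set R₂ := mahal K₂ / ((Fintype.card κ : ℝ) + 2)
  set a : ℝ := (Fintype.card ι : ℝ)
  set b : ℝ := (Fintype.card κ : ℝ)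
  have ha : 0 ≤ a := Nat.cast_nonneg _
  have hb : 0 ≤ b := Nat.cast_nonneg _
  have h5 : a + b + 1 ≠ 0 := by positivity
  have h6 : 1 + a * b / (a + b + 1) ≠ 0 := by positivity
  have key : (1 + (b * R₁ + a * R₂ - R₁ * R₂) / (a + b + 1)) =
      (1 + a * b / (a + b + 1)) * (1 - (a - R₁) * (b - R₂) / ((a + 1) * (b + 1))) := by
    field_simp
    ring
  rw [key]
  field_simp

/-- **Free sums cannot beat simplices unless a summand does.** -/
theorem isoRatio_freeSum_le [Nonempty ι] [Nonempty κ] {K₁ : Set (ι → ℝ)} {K₂ : Set (κ → ℝ)}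
    (h₁ : IsCompact K₁) (hc₁ : Convex ℝ K₁) (h0₁ : (0 : ι → ℝ) ∈ K₁)
    (hi₁ : (interior K₁).Nonempty)
    (h₂ : IsCompact K₂) (hc₂ : Convex ℝ K₂) (h0₂ : (0 : κ → ℝ) ∈ K₂)
    (hi₂ : (interior K₂).Nonempty) :
    isoPower (freeSum K₁ K₂) / isoPower (unitSimplex (ι ⊕ κ)) ≤
      (isoPower K₁ / isoPower (unitSimplex ι)) * (isoPower K₂ / isoPower (unitSimplex κ)) := by
  rw [isoRatio_freeSum h₁ hc₁ h0₁ hi₁ h₂ hc₂ h0₂ hi₂]
  have hs₁ := (isoPower_pos (isCompact_unitSimplex (ι := ι)) interior_unitSimplex_nonempty)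
  have hs₂ := (isoPower_pos (isCompact_unitSimplex (ι := κ)) interior_unitSimplex_nonempty)
  have hp₁ := isoPower_pos h₁ hi₁
  have hp₂ := isoPower_pos h₂ hi₂
  have hpos : 0 ≤ (isoPower K₁ / isoPower (unitSimplex ι)) * (isoPower K₂ / isoPower (unitSimplex κ)) := by
    positivity
  refine mul_le_of_le_one_right hpos ?_
  obtain ⟨hm1, hm2⟩ := mahal_bounds h₁ hc₁ h0₁ hi₁
  obtain ⟨hn1, hn2⟩ := mahal_bounds h₂ hc₂ h0₂ hi₂
  have ha : (0 : ℝ) ≤ (Fintype.card ι : ℝ) := Nat.cast_nonneg _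
  have hb : (0 : ℝ) ≤ (Fintype.card κ : ℝ) := Nat.cast_nonneg _
  have e1 : 0 ≤ (Fintype.card ι : ℝ) - mahal K₁ / ((Fintype.card ι : ℝ) + 2) := by
    rw [sub_nonneg, div_le_iff₀ (by positivity)]
    exact hm2
  have e2 : 0 ≤ (Fintype.card κ : ℝ) - mahal K₂ / ((Fintype.card κ : ℝ) + 2) := by
    rw [sub_nonneg, div_le_iff₀ (by positivity)]
    exact hn2
  have : 0 ≤ ((Fintype.card ι : ℝ) - mahal K₁ / ((Fintype.card ι : ℝ) + 2)) *
          ((Fintype.card κ : ℝ) - mahal K₂ / ((Fintype.card κ : ℝ) + 2)) /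
          (((Fintype.card ι : ℝ) + 1) * ((Fintype.card κ : ℝ) + 1)) := by
    positivity
  linarith

/-- **Exact formula for free sums of two simplices.** -/
theorem isoPower_freeSum_simplices [Nonempty ι] [Nonempty κ] {l : ι → ℝ} {m : κ → ℝ}
    (hl : l ∈ unitSimplex ι) (hm : m ∈ unitSimplex κ) :
    isoPower (freeSum (transl (unitSimplex ι) l) (transl (unitSimplex κ) m)) =
      isoPower (unitSimplex (ι ⊕ κ)) * (1 - (1 - baryNormSq l) * (1 - baryNormSq m)) := by
  have hK₁ := isCompact_unitSimplex (ι := ι)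
  have hK₂ := isCompact_unitSimplex (ι := κ)
  have hv₁ := (vol_unitSimplex_pos (ι := ι)).ne'
  have hv₂ := (vol_unitSimplex_pos (ι := κ)).ne'
  have h := isoRatio_freeSum (isCompact_transl hK₁ l) (convex_transl convex_unitSimplex l)
    (zero_mem_transl hl) (interior_transl interior_unitSimplex_nonempty l)
    (isCompact_transl hK₂ m) (convex_transl convex_unitSimplex m)
    (zero_mem_transl hm) (interior_transl interior_unitSimplex_nonempty m)
  rw [isoPower_transl hK₁ hv₁, isoPower_transl hK₂ hv₂, mahal_transl_unitSimplex,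
    mahal_transl_unitSimplex] at h
  have hs₁ := (isoPower_pos (isCompact_unitSimplex (ι := ι)) interior_unitSimplex_nonempty).ne'
  have hs₂ := (isoPower_pos (isCompact_unitSimplex (ι := κ)) interior_unitSimplex_nonempty).ne'
  have hs := (isoPower_pos (isCompact_unitSimplex (ι := ι ⊕ κ)) interior_unitSimplex_nonempty).ne'
  rw [div_self hs₁, div_self hs₂, one_mul, one_mul, div_eq_iff hs] at h
  rw [h]
  have ha : (0 : ℝ) ≤ (Fintype.card ι : ℝ) := Nat.cast_nonneg _
  have hb : (0 : ℝ) ≤ (Fintype.card κ : ℝ) := Nat.cast_nonneg _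
  have h5 : ((Fintype.card ι : ℝ) + 1) ≠ 0 := by positivity
  have h6 : ((Fintype.card κ : ℝ) + 1) ≠ 0 := by positivity
  rw [mul_comm]
  congr 2
  field_simp
  ring

end Vale.Agent.Lib.P254
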