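import Vale.Agent.Lib.P254.Polytope

/-!
Polytopes with `n + 2` vertices.
-/

open MeasureTheory Set Matrix
open scoped Pointwise Nat Matrix

namespace Vale.Agent.Lib.P254

variable {n : ℕ}

/-- `s(c) = ∑ max(cᵢ, 0)`. -/
noncomputable def posMass {I : Type*} [Fintype I] (c : I → ℝ) : ℝ := ∑ i, max (c i) 0

/-- `|λ|² = ∑ (max(cᵢ,0)/s)²`: the squared norm of the normalized positive part of `c`. -/
noncomputable def posNormSq {I : Type*} [Fintype I] (c : I → ℝ) : ℝ :=
  ∑ i, (max (c i) 0 / posMass c) ^ 2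

section split

variable {I : Type*} [Fintype I] (c : I → ℝ)

theorem max_sub_max (x : ℝ) : max x 0 - max (-x) 0 = x := by
  rcases le_total x 0 with h | h
  · rw [max_eq_right h, max_eq_left (by linarith)]
    ring
  · rw [max_eq_left h, max_eq_right (by linarith)]
    ring

theorem sum_pos_add_neg (hc1 : ∑ i, c i = 0) : posMass (-c) = posMass c := by
  unfold posMass
  have h2 : ∑ i, (max (c i) 0 - max (-c i) 0) = 0 := by
    calc ∑ i, (max (c i) 0 - max (-c i) 0) = ∑ i, c i :=
          Finset.sum_congr rfl (fun i _ => max_sub_max (c i))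
      _ = 0 := hc1
  rw [Finset.sum_sub_distrib] at h2
  simp only [Pi.neg_apply]
  linarith

theorem posMass_pos (hc0 : c ≠ 0) (hc1 : ∑ i, c i = 0) : 0 < posMass c := by
  have hnn : 0 ≤ posMass c := Finset.sum_nonneg (fun i _ => le_max_right _ _)
  rcases hnn.eq_or_lt with h | h
  · exfalso
    have h1 : ∀ i, max (c i) 0 = 0 := by
      have := (Finset.sum_eq_zero_iff_of_nonneg (fun i _ => le_max_right (c i) 0)).1 h.symm
      exact fun i => this i (Finset.mem_univ i)
    have h2 := sum_pos_add_neg c hc1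
    rw [← h] at h2
    have h3 : ∀ i, max (-c i) 0 = 0 := by
      have := (Finset.sum_eq_zero_iff_of_nonneg (fun i _ => le_max_right ((-c) i) 0)).1 h2
      exact fun i => this i (Finset.mem_univ i)
    apply hc0
    ext i
    have h4 := h1 i
    have h5 := h3 i
    have h6 := max_sub_max (c i)
    rw [h4, h5] at h6
    simp only [Pi.zero_apply]
    linarith
  · exact h

theorem posNormSq_nonneg : 0 ≤ posNormSq c :=
  Finset.sum_nonneg (fun _ _ => sq_nonneg _)

theorem posNormSq_le_one (hc0 : c ≠ 0) (hc1 : ∑ i, c i = 0) : posNormSq c ≤ 1 := by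
  have hs := posMass_pos c hc0 hc1
  have hsum : ∑ i, max (c i) 0 / posMass c = 1 := by
    rw [← Finset.sum_div]
    exact div_self hs.ne'
  rw [← hsum]
  refine Finset.sum_le_sum (fun i _ => ?_)
  have h0 : 0 ≤ max (c i) 0 / posMass c := div_nonneg (le_max_right _ _) hs.le
  have h1 : max (c i) 0 / posMass c ≤ 1 := by
    rw [← hsum]
    exact Finset.single_le_sum (f := fun i => max (c i) 0 / posMass c)
      (fun i _ => div_nonneg (le_max_right _ _) hs.le) (Finset.mem_univ i)
  nlinarith

/-- If `|λ|² = 1` then `c` has exactly one positive coordinate. -/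
theorem exists_of_posNormSq_eq_one [DecidableEq I] (hc0 : c ≠ 0) (hc1 : ∑ i, c i = 0)
    (h : posNormSq c = 1) : ∃ u, c u = posMass c ∧ ∀ j, j ≠ u → c j ≤ 0 := by
  have hs := posMass_pos c hc0 hc1
  set w : I → ℝ := fun i => max (c i) 0 / posMass c with hw
  have hw0 : ∀ i, 0 ≤ w i := fun i => div_nonneg (le_max_right _ _) hs.le
  have hsum : ∑ i, w i = 1 := by
    rw [← Finset.sum_div]
    exact div_self hs.ne'
  have hsq : ∑ i, w i ^ 2 = 1 := h
  have hw1 : ∀ i, w i ≤ 1 := by
    intro i
    rw [← hsum]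
    exact Finset.single_le_sum (f := w) (fun i _ => hw0 i) (Finset.mem_univ i)
  have hz : ∑ i, w i * (1 - w i) = 0 := by
    have : ∑ i, w i * (1 - w i) = ∑ i, w i - ∑ i, w i ^ 2 := by
      rw [← Finset.sum_sub_distrib]
      exact Finset.sum_congr rfl (fun i _ => by ring)
    rw [this, hsum, hsq]
    ring
  have hz' := (Finset.sum_eq_zero_iff_of_nonneg
    (fun i _ => mul_nonneg (hw0 i) (by linarith [hw1 i]))).1 hz
  obtain ⟨u, hu⟩ : ∃ u, w u ≠ 0 := by
    by_contra hcon
    push Not at hcon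
    have : ∑ i, w i = 0 := Finset.sum_eq_zero (fun i _ => hcon i)
    linarith
  have hu1 : w u = 1 := by
    have := hz' u (Finset.mem_univ u)
    rcases mul_eq_zero.1 this with h1 | h1
    · exact absurd h1 hu
    · linarith
  have hup : max (c u) 0 = posMass c := by
    have : max (c u) 0 / posMass c = 1 := hu1
    field_simp at this
    exact this
  refine ⟨u, ?_, ?_⟩
  · rcases le_total (c u) 0 with h1 | h1
    · rw [max_eq_right h1] at hup
      linarith
    · rw [max_eq_left h1] at hup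
      exact hup
  · intro j hj
    have h2 : ∑ i ∈ Finset.univ.erase u, w i = 0 := by
      have := Finset.add_sum_erase Finset.univ w (Finset.mem_univ u)
      linarith
    have h3 := (Finset.sum_eq_zero_iff_of_nonneg (fun i _ => hw0 i)).1 h2 j
      (Finset.mem_erase.2 ⟨hj, Finset.mem_univ j⟩)
    have h4 : max (c j) 0 = 0 := by
      have : max (c j) 0 / posMass c = 0 := h3
      rcases div_eq_zero_iff.1 this with h5 | h5
      · exact h5
      · linarith
    rw [max_eq_right_iff] at h4
    exact h4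

end split

/-- An affine dependency exists. -/
theorem exists_dependency (p : Fin (n + 2) → (Fin n → ℝ)) :
    ∃ c : Fin (n + 2) → ℝ, c ≠ 0 ∧ ∑ i, c i = 0 ∧ ∑ i, c i • p i = 0 := by
  have hnot : ¬ LinearIndependent ℝ (fun i => ((p i, 1) : (Fin n → ℝ) × ℝ)) := by
    intro hli
    have := hli.fintype_card_le_finrank
    simp at this
  rw [Fintype.not_linearIndependent_iff] at hnot
  obtain ⟨g, hg, i, hi⟩ := hnot
  refine ⟨g, fun h => hi (by simp [h]), ?_, ?_⟩
  · have := congrArg Prod.snd hg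
    simpa [Prod.snd_sum] using this
  · have := congrArg Prod.fst hg
    simpa [Prod.fst_sum] using this

section formula

variable (p : Fin (n + 2) → (Fin n → ℝ))

/-- a simplex spanned by all points but one -/
theorem isoPower_of_eq_hull_erase (hn : 1 ≤ n) (i : Fin (n + 2))
    (hi : (interior (convexHull ℝ (p '' {i}ᶜ))).Nonempty) :
    isoPower (convexHull ℝ (p '' {i}ᶜ)) = isoPower (unitSimplex (Fin n)) := by
  obtain ⟨b, hb⟩ : ∃ b : Fin (n + 2), b ≠ i := exists_ne i
  set E : Finset (Fin (n + 2)) := (Finset.univ.erase i).erase b with hE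
  have hcard : Fintype.card ↥E = n := by
    rw [Fintype.card_coe, hE, Finset.card_erase_of_mem (Finset.mem_erase.2 ⟨hb, Finset.mem_univ b⟩),
      Finset.card_erase_of_mem (Finset.mem_univ i)]
    simp
  have hne : Nonempty ↥E := by
    rw [← Fintype.card_pos_iff, hcard]
    omega
  have hT : p '' {i}ᶜ = {p b} ∪ range (fun k : ↥E => p k.1) := by
    ext y
    constructor
    · rintro ⟨k, hk, rfl⟩
      by_cases hkb : k = b
      · left
        rw [hkb]
        rfl
      · right
        exact ⟨⟨k, Finset.mem_erase.2 ⟨hkb, Finset.mem_erase.2 ⟨hk, Finset.mem_univ k⟩⟩⟩, rfl⟩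
    · rintro (rfl | ⟨k, rfl⟩)
      · exact ⟨b, hb, rfl⟩
      · have hk2 : k.1 ∈ (Finset.univ.erase i).erase b := k.2
        rw [Finset.mem_erase, Finset.mem_erase] at hk2
        exact ⟨k.1, hk2.2.1, rfl⟩
  rw [hT] at hi ⊢
  exact core_simplex hcard (p b) _ hi

/-- **The formula for polytopes with `n + 2` vertices.** -/
theorem isoPower_hull_formula (hn : 1 ≤ n)
    (hp : (interior (convexHull ℝ (range p))).Nonempty) {c : Fin (n + 2) → ℝ} (hc0 : c ≠ 0)
    (hc1 : ∑ i, c i = 0) (hc2 : ∑ i, c i • p i = 0) :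
    isoPower (convexHull ℝ (range p)) =
      isoPower (unitSimplex (Fin n)) * (1 - (1 - posNormSq c) * (1 - posNormSq (-c))) := by
  classical
  have hs := posMass_pos c hc0 hc1
  set s := posMass c with hsdef
  set A : Finset (Fin (n + 2)) := Finset.univ.filter (fun i => 0 < c i) with hA
  set B : Finset (Fin (n + 2)) := Finset.univ.filter (fun i => ¬ 0 < c i) with hB
  have hAB : ∀ g : Fin (n + 2) → ℝ, ∑ k ∈ A, g k + ∑ k ∈ B, g k = ∑ k, g k :=
    fun g => Finset.sum_filter_add_sum_filter_not _ _ _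
  have hABE : ∀ g : Fin (n + 2) → (Fin n → ℝ), ∑ k ∈ A, g k + ∑ k ∈ B, g k = ∑ k, g k :=
    fun g => Finset.sum_filter_add_sum_filter_not _ _ _
  have hcardAB : A.card + B.card = n + 2 := by
    have := Finset.card_filter_add_card_filter_not (s := (Finset.univ : Finset (Fin (n + 2))))
      (fun i => 0 < c i)
    rw [Finset.card_univ, Fintype.card_fin] at this
    exact this
  -- the masses
  have hAs : ∑ k ∈ A, c k = s := by
    rw [hsdef, posMass, ← hAB (fun k => max (c k) 0)]
    have h1 : ∑ k ∈ A, max (c k) 0 = ∑ k ∈ A, c k :=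
      Finset.sum_congr rfl (fun k hk => max_eq_left (Finset.mem_filter.1 hk).2.le)
    have h2 : ∑ k ∈ B, max (c k) 0 = 0 :=
      Finset.sum_eq_zero (fun k hk => max_eq_right (not_lt.1 (Finset.mem_filter.1 hk).2))
    rw [h1, h2, add_zero]
  have hBs : ∑ k ∈ B, (-c k) = s := by
    have := hAB c
    rw [hc1, hAs] at this
    rw [Finset.sum_neg_distrib]
    linarith
  have hnonA : A.Nonempty := by
    rw [Finset.nonempty_iff_ne_empty]
    intro h
    rw [h] at hAs
    simp at hAs
    linarith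
  have hnonB : B.Nonempty := by
    rw [Finset.nonempty_iff_ne_empty]
    intro h
    rw [h] at hBs
    simp at hBs
    linarith
  obtain ⟨u0, hu0⟩ := hnonA
  obtain ⟨v0, hv0⟩ := hnonB
  have hcu : 0 < c u0 := (Finset.mem_filter.1 hu0).2
  have hcv : c v0 ≤ 0 := not_lt.1 (Finset.mem_filter.1 hv0).2
  set ι := ↥(A.erase u0) with hι
  set κ := ↥(B.erase v0) with hκ
  set l : ι → ℝ := fun i => c i.1 / s with hl
  set m : κ → ℝ := fun j => -c j.1 / s with hm
  have hmemA : ∀ i : ι, i.1 ∈ A := fun i => (Finset.mem_erase.1 i.2).2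
  have hmemB : ∀ j : κ, j.1 ∈ B := fun j => (Finset.mem_erase.1 j.2).2
  have hl0 : ∀ i, 0 ≤ l i := fun i =>
    div_nonneg (Finset.mem_filter.1 (hmemA i)).2.le hs.le
  have hm0 : ∀ j, 0 ≤ m j := fun j =>
    div_nonneg (by linarith [not_lt.1 (Finset.mem_filter.1 (hmemB j)).2]) hs.le
  have hsumι : ∀ g : Fin (n + 2) → ℝ, ∑ i : ι, g i.1 = ∑ k ∈ A, g k - g u0 := by
    intro g
    rw [Finset.sum_coe_sort (A.erase u0) g]
    have := Finset.add_sum_erase A g hu0
    linarith
  have hsumκ : ∀ g : Fin (n + 2) → ℝ, ∑ i : κ, g i.1 = ∑ k ∈ B, g k - g v0 := by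
    intro g
    rw [Finset.sum_coe_sort (B.erase v0) g]
    have := Finset.add_sum_erase B g hv0
    linarith
  have hsumιE : ∀ g : Fin (n + 2) → (Fin n → ℝ), ∑ i : ι, g i.1 = ∑ k ∈ A, g k - g u0 := by
    intro g
    rw [Finset.sum_coe_sort (A.erase u0) g, ← Finset.add_sum_erase A g hu0]
    abel
  have hsumκE : ∀ g : Fin (n + 2) → (Fin n → ℝ), ∑ i : κ, g i.1 = ∑ k ∈ B, g k - g v0 := by
    intro g
    rw [Finset.sum_coe_sort (B.erase v0) g, ← Finset.add_sum_erase B g hv0]
    abel
  have hlsum : ∑ i, l i = 1 - c u0 / s := by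
    rw [hsumι (fun k => c k / s), ← Finset.sum_div, hAs, div_self hs.ne']
  have hmsum : ∑ j, m j = 1 - (-c v0) / s := by
    rw [hsumκ (fun k => -c k / s), ← Finset.sum_div, hBs, div_self hs.ne']
  have hlmem : l ∈ unitSimplex ι := ⟨hl0, by
    rw [hlsum]
    have : 0 ≤ c u0 / s := div_nonneg hcu.le hs.le
    linarith⟩
  have hmmem : m ∈ unitSimplex κ := ⟨hm0, by
    rw [hmsum]
    have : 0 ≤ (-c v0) / s := div_nonneg (by linarith) hs.le
    linarith⟩
  -- the common point
  have hq1 : p u0 + ∑ i, l i • (p i.1 - p u0) = s⁻¹ • ∑ k ∈ A, c k • p k := by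
    have h1 : ∑ i, l i • (p i.1 - p u0) = ∑ i, l i • p i.1 - (∑ i, l i) • p u0 := by
      simp only [smul_sub, Finset.sum_sub_distrib, Finset.sum_smul]
    have h2 : ∑ i, l i • p i.1 = s⁻¹ • (∑ k ∈ A, c k • p k - c u0 • p u0) := by
      have := hsumιE (fun k => (c k / s) • p k)
      simp only [hl]
      rw [this]
      have h3 : ∑ k ∈ A, (c k / s) • p k = s⁻¹ • ∑ k ∈ A, c k • p k := by
        rw [Finset.smul_sum]
        refine Finset.sum_congr rfl (fun k _ => ?_)
        rw [smul_smul, div_eq_inv_mul]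
      rw [h3, smul_sub, smul_smul, div_eq_inv_mul]
    rw [h1, h2, hlsum, smul_sub, smul_smul, sub_smul, one_smul, div_eq_inv_mul]
    abel
  have hq2 : p v0 + ∑ j, m j • (p j.1 - p v0) = s⁻¹ • ∑ k ∈ B, (-c k) • p k := by
    have h1 : ∑ j, m j • (p j.1 - p v0) = ∑ j, m j • p j.1 - (∑ j, m j) • p v0 := by
      simp only [smul_sub, Finset.sum_sub_distrib, Finset.sum_smul]
    have h2 : ∑ j, m j • p j.1 = s⁻¹ • (∑ k ∈ B, (-c k) • p k - (-c v0) • p v0) := by
      have := hsumκE (fun k => (-c k / s) • p k)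
      simp only [hm]
      rw [this]
      have h3 : ∑ k ∈ B, (-c k / s) • p k = s⁻¹ • ∑ k ∈ B, (-c k) • p k := by
        rw [Finset.smul_sum]
        refine Finset.sum_congr rfl (fun k _ => ?_)
        rw [smul_smul, div_eq_inv_mul]
      rw [h3, smul_sub, smul_smul, div_eq_inv_mul]
    rw [h1, h2, hmsum, smul_sub, smul_smul, sub_smul, one_smul, div_eq_inv_mul]
    abel
  have hq : p u0 + ∑ i, l i • (p i.1 - p u0) = p v0 + ∑ j, m j • (p j.1 - p v0) := by
    rw [hq1, hq2]
    congr 1
    have := hABE (fun k => c k • p k)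
    rw [hc2] at this
    simp only [neg_smul, Finset.sum_neg_distrib]
    exact eq_neg_of_add_eq_zero_left this
  -- the norms
  have hnormA : baryNormSq l = posNormSq c := by
    unfold baryNormSq posNormSq
    rw [hlsum, ← hsdef]
    have h1 : ∑ i, l i ^ 2 = ∑ k ∈ A, (c k / s) ^ 2 - (c u0 / s) ^ 2 :=
      hsumι (fun k => (c k / s) ^ 2)
    rw [h1, ← hAB (fun k => (max (c k) 0 / s) ^ 2)]
    have h2 : ∑ k ∈ A, (max (c k) 0 / s) ^ 2 = ∑ k ∈ A, (c k / s) ^ 2 :=
      Finset.sum_congr rfl (fun k hk => by rw [max_eq_left (Finset.mem_filter.1 hk).2.le])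
    have h3 : ∑ k ∈ B, (max (c k) 0 / s) ^ 2 = 0 :=
      Finset.sum_eq_zero (fun k hk => by
        rw [max_eq_right (not_lt.1 (Finset.mem_filter.1 hk).2)]
        simp)
    rw [h2, h3]
    have : 1 - (1 - c u0 / s) = c u0 / s := by ring
    rw [this]
    ring
  have hmass : posMass (-c) = s := sum_pos_add_neg c hc1
  have hnormB : baryNormSq m = posNormSq (-c) := by
    unfold baryNormSq posNormSq
    rw [hmsum, hmass]
    have h1 : ∑ j, m j ^ 2 = ∑ k ∈ B, (-c k / s) ^ 2 - (-c v0 / s) ^ 2 :=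
      hsumκ (fun k => (-c k / s) ^ 2)
    rw [h1, ← hAB (fun k => (max ((-c) k) 0 / s) ^ 2)]
    have h2 : ∑ k ∈ B, (max ((-c) k) 0 / s) ^ 2 = ∑ k ∈ B, (-c k / s) ^ 2 :=
      Finset.sum_congr rfl (fun k hk => by
        rw [Pi.neg_apply, max_eq_left (by linarith [not_lt.1 (Finset.mem_filter.1 hk).2])])
    have h3 : ∑ k ∈ A, (max ((-c) k) 0 / s) ^ 2 = 0 :=
      Finset.sum_eq_zero (fun k hk => by
        rw [Pi.neg_apply, max_eq_right (by linarith [(Finset.mem_filter.1 hk).2])]
        simp)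
    rw [h2, h3]
    have : 1 - (1 - -c v0 / s) = -c v0 / s := by ring
    rw [this]
    ring
  -- the set of points
  have hT : range p = ({p u0} ∪ range (fun i : ι => p i.1)) ∪ ({p v0} ∪ range (fun j : κ => p j.1)) := by
    ext y
    constructor
    · rintro ⟨k, rfl⟩
      by_cases hk : 0 < c k
      · have hkA : k ∈ A := Finset.mem_filter.2 ⟨Finset.mem_univ k, hk⟩
        by_cases hku : k = u0
        · left; left; rw [hku]; rfl
        · left; right
          exact ⟨⟨k, Finset.mem_erase.2 ⟨hku, hkA⟩⟩, rfl⟩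
      · have hkB : k ∈ B := Finset.mem_filter.2 ⟨Finset.mem_univ k, hk⟩
        by_cases hkv : k = v0
        · right; left; rw [hkv]; rfl
        · right; right
          exact ⟨⟨k, Finset.mem_erase.2 ⟨hkv, hkB⟩⟩, rfl⟩
    · rintro ((rfl | ⟨k, rfl⟩) | (rfl | ⟨k, rfl⟩))
      · exact ⟨u0, rfl⟩
      · exact ⟨k.1, rfl⟩
      · exact ⟨v0, rfl⟩
      · exact ⟨k.1, rfl⟩
  have hcardι : Fintype.card ι = A.card - 1 := by
    show Fintype.card ↥(A.erase u0) = _
    rw [Fintype.card_coe, Finset.card_erase_of_mem hu0]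
  have hcardκ : Fintype.card κ = B.card - 1 := by
    show Fintype.card ↥(B.erase v0) = _
    rw [Fintype.card_coe, Finset.card_erase_of_mem hv0]
  have hA1 : 1 ≤ A.card := Finset.card_pos.2 ⟨u0, hu0⟩
  have hB1 : 1 ≤ B.card := Finset.card_pos.2 ⟨v0, hv0⟩
  by_cases hιne : Nonempty ι
  · by_cases hκne : Nonempty κ
    · rw [hT] at hp ⊢
      have := core_freeSum (by omega) (p u0) (p v0) (fun i : ι => p i.1) (fun j : κ => p j.1)
        hlmem hmmem hq hp
      rw [this, hnormA, hnormB]
    · -- `V` is a single point: `p v0` lies in the hull of the others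
      have hκe : IsEmpty κ := not_nonempty_iff.1 hκne
      have hv : p v0 = p u0 + ∑ i, l i • (p i.1 - p u0) := by
        rw [hq]
        simp
      have hmm : baryNormSq m = 1 := by
        unfold baryNormSq
        have h1 : ∑ j, m j = 0 := by simp
        have h2 : ∑ j, m j ^ 2 = 0 := by simp
        rw [h1, h2]
        ring
      have hb1 : p u0 ∈ convexHull ℝ ({p u0} ∪ range (fun i : ι => p i.1)) :=
        subset_convexHull ℝ ({p u0} ∪ range (fun i : ι => p i.1)) (Or.inl rfl)
      have hb2 : ∀ i : ι, p i.1 ∈ convexHull ℝ ({p u0} ∪ range (fun i : ι => p i.1)) := fun i =>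
        subset_convexHull ℝ ({p u0} ∪ range (fun i : ι => p i.1)) (Or.inr ⟨i, rfl⟩)
      have hsub : ∀ y ∈ range p, y ∈ convexHull ℝ ({p u0} ∪ range (fun i : ι => p i.1)) := by
        rw [hT]
        rintro y ((rfl | ⟨i, rfl⟩) | (rfl | ⟨j, rfl⟩))
        · exact hb1
        · exact hb2 i
        · rw [hv]
          exact simplex_comb_mem (convex_convexHull ℝ _) hb1 hb2 hlmem
        · exact hκe.elim j
      have heq : convexHull ℝ (range p) = convexHull ℝ ({p u0} ∪ range (fun i : ι => p i.1)) := by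
        apply Subset.antisymm
        · exact convexHull_min hsub (convex_convexHull ℝ _)
        · apply convexHull_mono
          rw [hT]
          exact subset_union_left
      rw [heq] at hp ⊢
      have hcardn : Fintype.card ι = n := by
        have : Fintype.card κ = 0 := Fintype.card_eq_zero
        omega
      rw [core_simplex hcardn _ _ hp, ← hnormB, hmm]
      ring
  · -- `U` is a single point
    have hιe : IsEmpty ι := not_nonempty_iff.1 hιne
    have hu : p u0 = p v0 + ∑ j, m j • (p j.1 - p v0) := by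
      rw [← hq]
      simp
    have hll : baryNormSq l = 1 := by
      unfold baryNormSq
      have h1 : ∑ j, l j = 0 := by simp
      have h2 : ∑ j, l j ^ 2 = 0 := by simp
      rw [h1, h2]
      ring
    have hb1 : p v0 ∈ convexHull ℝ ({p v0} ∪ range (fun j : κ => p j.1)) :=
      subset_convexHull ℝ ({p v0} ∪ range (fun j : κ => p j.1)) (Or.inl rfl)
    have hb2 : ∀ j : κ, p j.1 ∈ convexHull ℝ ({p v0} ∪ range (fun j : κ => p j.1)) := fun j =>
      subset_convexHull ℝ ({p v0} ∪ range (fun j : κ => p j.1)) (Or.inr ⟨j, rfl⟩)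
    have hsub : ∀ y ∈ range p, y ∈ convexHull ℝ ({p v0} ∪ range (fun j : κ => p j.1)) := by
      rw [hT]
      rintro y ((rfl | ⟨i, rfl⟩) | (rfl | ⟨j, rfl⟩))
      · rw [hu]
        exact simplex_comb_mem (convex_convexHull ℝ _) hb1 hb2 hmmem
      · exact hιe.elim i
      · exact hb1
      · exact hb2 j
    have heq : convexHull ℝ (range p) = convexHull ℝ ({p v0} ∪ range (fun j : κ => p j.1)) := by
      apply Subset.antisymm
      · exact convexHull_min hsub (convex_convexHull ℝ _)
      · apply convexHull_mono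
        rw [hT]
        exact subset_union_right
    rw [heq] at hp ⊢
    have hcardn : Fintype.card κ = n := by
      have : Fintype.card ι = 0 := Fintype.card_eq_zero
      omega
    have hκne : Nonempty κ := by
      rw [← Fintype.card_pos_iff, hcardn]
      omega
    rw [core_simplex hcardn _ _ hp, ← hnormA, hll]
    ring

end formula

end Vale.Agent.Lib.P254
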