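import Vale.Agent.Lib.P254.Main

/-!
Affine images: reducing a polytope with `n + 2` vertices to a free sum of two simplices.
-/

open MeasureTheory Set Matrix
open scoped Pointwise Nat Matrix

namespace Vale.Agent.Lib.P254

variable {n : ℕ} {Z : Type*} [Fintype Z] [DecidableEq Z]

/-- the affine map `z ↦ ∑ z_w v_w + q` -/
noncomputable def linAff (v : Z → (Fin n → ℝ)) (q : Fin n → ℝ) : (Z → ℝ) →ᵃ[ℝ] (Fin n → ℝ) :=
  (Fintype.linearCombination ℝ v).toAffineMap + AffineMap.const ℝ _ q

theorem linAff_apply (v : Z → (Fin n → ℝ)) (q : Fin n → ℝ) (z : Z → ℝ) :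
    linAff v q z = ∑ w, z w • v w + q := by
  simp [linAff, Fintype.linearCombination_apply]

/-- the matrix of `linAff` after relabelling -/
def matOf (e : Z ≃ Fin n) (v : Z → (Fin n → ℝ)) : Matrix (Fin n) (Fin n) ℝ :=
  Matrix.of fun k l => v (e.symm l) k

theorem linAff_eq (e : Z ≃ Fin n) (v : Z → (Fin n → ℝ)) (q : Fin n → ℝ) (z : Z → ℝ) :
    linAff v q z = affMap (matOf e v) q (relabel e z) := by
  rw [linAff_apply]
  ext k
  simp only [affMap, Pi.add_apply, mulVec, dotProduct, matOf, Matrix.of_apply, relabel_apply',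
    Finset.sum_apply, Pi.smul_apply, smul_eq_mul]
  congr 1
  rw [← Equiv.sum_comp e]
  simp [mul_comm]

theorem image_linAff_eq (e : Z ≃ Fin n) (v : Z → (Fin n → ℝ)) (q : Fin n → ℝ) (K : Set (Z → ℝ)) :
    linAff v q '' K = affMap (matOf e v) q '' (relabel e '' K) := by
  rw [image_image]
  exact image_congr (fun z _ => linAff_eq e v q z)

theorem det_matOf_ne_zero (e : Z ≃ Fin n) (v : Z → (Fin n → ℝ)) (q : Fin n → ℝ) {K : Set (Z → ℝ)}
    (hi : (interior (linAff v q '' K)).Nonempty) : (matOf e v).det ≠ 0 := by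
  intro hdet
  obtain ⟨w, hw, hw2⟩ := Matrix.exists_vecMul_eq_zero_iff.2 hdet
  -- the image lies in a hyperplane
  have hsub : ∀ y ∈ linAff v q '' K, w ⬝ᵥ y = w ⬝ᵥ q := by
    rintro _ ⟨z, _, rfl⟩
    rw [linAff_eq e, affMap, dotProduct_add, dotProduct_mulVec, hw2, zero_dotProduct, zero_add]
  obtain ⟨x₀, hx₀⟩ := hi
  obtain ⟨i, hi'⟩ : ∃ i, w i ≠ 0 := by
    by_contra hcon
    push Not at hcon
    exact hw (funext hcon)
  have hcont : Continuous (fun t : ℝ => x₀ + t • (Pi.single i (1 : ℝ) : Fin n → ℝ)) := by fun_prop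
  have hev : ∀ᶠ t in nhds (0 : ℝ), x₀ + t • (Pi.single i (1 : ℝ) : Fin n → ℝ) ∈
      interior (linAff v q '' K) := by
    apply hcont.continuousAt.eventually_mem
    simpa using isOpen_interior.mem_nhds hx₀
  have hev2 := (hev.filter_mono (nhdsWithin_le_nhds (s := {0}ᶜ))).and self_mem_nhdsWithin
  obtain ⟨t, ht1, ht2⟩ := hev2.exists
  have h1 := hsub _ (interior_subset ht1)
  have h2 := hsub _ (interior_subset hx₀)
  rw [dotProduct_add, dotProduct_smul, dotProduct_single, h2] at h1
  simp only [smul_eq_mul, mul_one, add_eq_left, mul_eq_zero] at h1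
  rcases h1 with h1 | h1
  · exact ht2 h1
  · exact hi' h1

theorem continuous_relabel (e : Z ≃ Fin n) : Continuous (relabel e) := by
  refine continuous_pi (fun i' => ?_)
  simp_rw [relabel_apply']
  exact continuous_apply _

theorem isCompact_relabel (e : Z ≃ Fin n) {K : Set (Z → ℝ)} (hK : IsCompact K) :
    IsCompact (relabel e '' K) := hK.image (continuous_relabel e)

theorem relabel_unitSimplex (e : Z ≃ Fin n) : relabel e '' unitSimplex Z = unitSimplex (Fin n) := by
  have key : ∀ x : Z → ℝ, relabel e x ∈ unitSimplex (Fin n) ↔ x ∈ unitSimplex Z := by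
    intro x
    constructor
    · rintro ⟨h1, h2⟩
      refine ⟨fun w => ?_, ?_⟩
      · have := h1 (e w)
        rwa [relabel_apply] at this
      · rw [← Equiv.sum_comp e] at h2
        simpa [relabel_apply] using h2
    · rintro ⟨h1, h2⟩
      refine ⟨fun w => ?_, ?_⟩
      · rw [relabel_apply']
        exact h1 _
      · rw [← Equiv.sum_comp e]
        simpa [relabel_apply] using h2
  ext y
  constructor
  · rintro ⟨x, hx, rfl⟩
    exact (key x).2 hx
  · intro hy
    refine ⟨(relabel e).symm y, ?_, by simp⟩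
    rw [← key]
    simpa using hy

theorem isoPower_unitSimplex_relabel (e : Z ≃ Fin n) :
    isoPower (unitSimplex Z) = isoPower (unitSimplex (Fin n)) := by
  rw [← relabel_unitSimplex e, isoPower_image_relabel]

/-- convex combinations, written relative to a base point -/
theorem simplex_comb_mem {ι E : Type*} [Fintype ι] [AddCommGroup E] [Module ℝ E] {C : Set E}
    (hC : Convex ℝ C) {b : E} {P : ι → E} (hb : b ∈ C) (hP : ∀ i, P i ∈ C) {x : ι → ℝ}
    (hx : x ∈ unitSimplex ι) : b + ∑ i, x i • (P i - b) ∈ C := by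
  classical
  have h := hC.sum_mem (t := (Finset.univ : Finset (Option ι)))
    (w := fun o => o.elim (1 - ∑ i, x i) x) (z := fun o => o.elim b P) ?_ ?_ ?_
  · have e : ∑ o : Option ι, (o.elim (1 - ∑ i, x i) x) • (o.elim b P : E) =
        b + ∑ i, x i • (P i - b) := by
      rw [Fintype.sum_option]
      simp only [Option.elim_none, Option.elim_some, smul_sub, Finset.sum_sub_distrib, sub_smul,
        one_smul, ← Finset.sum_smul]
      abel
    rw [← e]
    exact h
  · intro o _
    cases o with
    | none => simpa using hx.2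
    | some i => simpa using hx.1 i
  · rw [Fintype.sum_option]
    simp
  · intro o _
    cases o with
    | none => simpa using hb
    | some i => simpa using hP i

theorem single_mem_unitSimplex {ι : Type*} [Fintype ι] [DecidableEq ι] (i : ι) :
    (Pi.single i (1 : ℝ) : ι → ℝ) ∈ unitSimplex ι := by
  refine ⟨fun j => ?_, ?_⟩
  · by_cases h : j = i
    · subst h
      simp
    · simp [h]
  · simp

section core

variable {ι κ : Type*} [Fintype ι] [Fintype κ] [DecidableEq ι] [DecidableEq κ]

/-- A simplex given by a base point and `n` further points has the value of the standard simplex. -/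
theorem core_simplex [Nonempty ι] (hcard : Fintype.card ι = n) (pu : Fin n → ℝ) (P : ι → (Fin n → ℝ))
    (hi : (interior (convexHull ℝ ({pu} ∪ range P))).Nonempty) :
    isoPower (convexHull ℝ ({pu} ∪ range P)) = isoPower (unitSimplex (Fin n)) := by
  set T : Set (Fin n → ℝ) := {pu} ∪ range P with hT
  have hpu : pu ∈ convexHull ℝ T := subset_convexHull ℝ T (Or.inl rfl)
  have hP : ∀ i, P i ∈ convexHull ℝ T := fun i => subset_convexHull ℝ T (Or.inr ⟨i, rfl⟩)
  set v : ι → (Fin n → ℝ) := fun i => P i - pu with hv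
  set f := linAff v pu with hf
  have hfx : ∀ x, f x = pu + ∑ i, x i • (P i - pu) := by
    intro x
    rw [hf, linAff_apply, add_comm]
  have himg : f '' unitSimplex ι = convexHull ℝ T := by
    apply Subset.antisymm
    · rintro _ ⟨x, hx, rfl⟩
      rw [hfx]
      exact simplex_comb_mem (convex_convexHull ℝ T) hpu hP hx
    · apply convexHull_min _ (convex_unitSimplex.affine_image f)
      rintro y (rfl | ⟨i, rfl⟩)
      · exact ⟨0, zero_mem_unitSimplex, by simp [hfx]⟩
      · refine ⟨Pi.single i 1, single_mem_unitSimplex i, ?_⟩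
        rw [hfx]
        have : ∑ j, (Pi.single i (1 : ℝ) : ι → ℝ) j • (P j - pu) = P i - pu := by
          rw [Finset.sum_eq_single i]
          · simp
          · intro j _ hj
            simp [hj]
          · simp
        rw [this]
        abel
  have e : ι ≃ Fin n := Fintype.equivFinOfCardEq hcard
  rw [← himg] at hi ⊢
  have hdet := det_matOf_ne_zero e v pu hi
  rw [hf, image_linAff_eq e, isoPower_image_aff hdet _
    (isCompact_relabel e isCompact_unitSimplex)
    (by rw [vol_image_relabel]; exact vol_unitSimplex_pos.ne'), isoPower_image_relabel,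
    isoPower_unitSimplex_relabel e]

/-- The free-sum case. -/
theorem core_freeSum [Nonempty ι] [Nonempty κ] (hcard : Fintype.card ι + Fintype.card κ = n)
    (pu pv : Fin n → ℝ) (P : ι → (Fin n → ℝ)) (R : κ → (Fin n → ℝ)) {l : ι → ℝ} {m : κ → ℝ}
    (hl : l ∈ unitSimplex ι) (hm : m ∈ unitSimplex κ)
    (hq : pu + ∑ i, l i • (P i - pu) = pv + ∑ j, m j • (R j - pv))
    (hi : (interior (convexHull ℝ (({pu} ∪ range P) ∪ ({pv} ∪ range R)))).Nonempty) :
    isoPower (convexHull ℝ (({pu} ∪ range P) ∪ ({pv} ∪ range R))) =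
      isoPower (unitSimplex (Fin n)) * (1 - (1 - baryNormSq l) * (1 - baryNormSq m)) := by
  set T : Set (Fin n → ℝ) := ({pu} ∪ range P) ∪ ({pv} ∪ range R) with hT
  have hpu : pu ∈ convexHull ℝ T := subset_convexHull ℝ T (Or.inl (Or.inl rfl))
  have hP : ∀ i, P i ∈ convexHull ℝ T := fun i => subset_convexHull ℝ T (Or.inl (Or.inr ⟨i, rfl⟩))
  have hpv : pv ∈ convexHull ℝ T := subset_convexHull ℝ T (Or.inr (Or.inl rfl))
  have hR : ∀ i, R i ∈ convexHull ℝ T := fun i => subset_convexHull ℝ T (Or.inr (Or.inr ⟨i, rfl⟩))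
  set q := pu + ∑ i, l i • (P i - pu) with hqdef
  set v : ι ⊕ κ → (Fin n → ℝ) := Sum.elim (fun i => P i - pu) (fun j => R j - pv) with hv
  set f := linAff v q with hf
  have hfL : ∀ x : ι → ℝ, f (Sum.elim (x - l) 0) = pu + ∑ i, x i • (P i - pu) := by
    intro x
    rw [hf, linAff_apply, Fintype.sum_sum_type]
    simp only [hv, Sum.elim_inl, Sum.elim_inr, Pi.zero_apply, zero_smul, Finset.sum_const_zero,
      add_zero, Pi.sub_apply, sub_smul, Finset.sum_sub_distrib, hqdef]
    abel
  have hfR : ∀ y : κ → ℝ, f (Sum.elim 0 (y - m)) = pv + ∑ j, y j • (R j - pv) := by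
    intro y
    rw [hf, linAff_apply, Fintype.sum_sum_type]
    simp only [hv, Sum.elim_inl, Sum.elim_inr, Pi.zero_apply, zero_smul, Finset.sum_const_zero,
      zero_add, Pi.sub_apply, sub_smul, Finset.sum_sub_distrib]
    rw [hq]
    abel
  have hK₁ := isCompact_unitSimplex (ι := ι)
  have hK₂ := isCompact_unitSimplex (ι := κ)
  set K₀ := freeSum (transl (unitSimplex ι) l) (transl (unitSimplex κ) m) with hK₀
  have himg : f '' K₀ = convexHull ℝ T := by
    rw [hK₀, freeSum, AffineMap.image_convexHull]
    apply Subset.antisymm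
    · apply convexHull_min _ (convex_convexHull ℝ T)
      rintro _ ⟨_, (⟨_, ⟨x, hx, rfl⟩, rfl⟩ | ⟨_, ⟨y, hy, rfl⟩, rfl⟩), rfl⟩
      · simp only [sub_eq_add_neg]
        have := hfL x
        simp only [sub_eq_add_neg] at this
        rw [this]
        exact simplex_comb_mem (convex_convexHull ℝ T) hpu hP hx
      · simp only [sub_eq_add_neg]
        have := hfR y
        simp only [sub_eq_add_neg] at this
        rw [this]
        exact simplex_comb_mem (convex_convexHull ℝ T) hpv hR hy
    · apply convexHull_mono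
      have hLmem : ∀ x ∈ unitSimplex ι, pu + ∑ i, x i • (P i - pu) ∈ (f : (ι ⊕ κ → ℝ) → _) ''
          ((fun x : ι → ℝ => (Sum.elim x 0 : ι ⊕ κ → ℝ)) '' transl (unitSimplex ι) l ∪
            (fun y : κ → ℝ => (Sum.elim 0 y : ι ⊕ κ → ℝ)) '' transl (unitSimplex κ) m) := by
        intro x hx
        exact ⟨_, Or.inl ⟨x - l, ⟨x, hx, rfl⟩, rfl⟩, hfL x⟩
      have hRmem : ∀ y ∈ unitSimplex κ, pv + ∑ j, y j • (R j - pv) ∈ (f : (ι ⊕ κ → ℝ) → _) ''
          ((fun x : ι → ℝ => (Sum.elim x 0 : ι ⊕ κ → ℝ)) '' transl (unitSimplex ι) l ∪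
            (fun y : κ → ℝ => (Sum.elim 0 y : ι ⊕ κ → ℝ)) '' transl (unitSimplex κ) m) := by
        intro y hy
        exact ⟨_, Or.inr ⟨y - m, ⟨y, hy, rfl⟩, rfl⟩, hfR y⟩
      rintro y ((rfl | ⟨i, rfl⟩) | (rfl | ⟨j, rfl⟩))
      · have := hLmem 0 zero_mem_unitSimplex
        simpa using this
      · have := hLmem _ (single_mem_unitSimplex i)
        have e1 : ∑ k, (Pi.single i (1 : ℝ) : ι → ℝ) k • (P k - pu) = P i - pu := by
          rw [Finset.sum_eq_single i]
          · simp
          · intro k _ hk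
            simp [hk]
          · simp
        rw [e1] at this
        simpa using this
      · have := hRmem 0 zero_mem_unitSimplex
        simpa using this
      · have := hRmem _ (single_mem_unitSimplex j)
        have e1 : ∑ k, (Pi.single j (1 : ℝ) : κ → ℝ) k • (R k - pv) = R j - pv := by
          rw [Finset.sum_eq_single j]
          · simp
          · intro k _ hk
            simp [hk]
          · simp
        rw [e1] at this
        simpa using this
  have hne₁ : Nonempty ι := inferInstance
  have e : ι ⊕ κ ≃ Fin n := Fintype.equivFinOfCardEq (by rw [Fintype.card_sum, hcard])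
  rw [← himg] at hi ⊢
  have hdet := det_matOf_ne_zero e v q hi
  have hcomp := isCompact_freeSum (isCompact_transl hK₁ l) (convex_transl convex_unitSimplex l)
    (zero_mem_transl hl) (isCompact_transl hK₂ m) (convex_transl convex_unitSimplex m)
    (zero_mem_transl hm)
  have hvol : vol K₀ ≠ 0 := vol_freeSum_ne (isCompact_transl hK₁ l)
    (convex_transl convex_unitSimplex l) (zero_mem_transl hl) (isCompact_transl hK₂ m)
    (convex_transl convex_unitSimplex m) (zero_mem_transl hm)
    (vol_pos (isCompact_transl hK₁ l) (interior_transl interior_unitSimplex_nonempty l)).ne'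
    (vol_pos (isCompact_transl hK₂ m) (interior_transl interior_unitSimplex_nonempty m)).ne'
  rw [hf, image_linAff_eq e, isoPower_image_aff hdet _ (isCompact_relabel e hcomp)
    (by rw [vol_image_relabel]; exact hvol), isoPower_image_relabel,
    isoPower_freeSum_simplices hl hm, isoPower_unitSimplex_relabel e]

end core

end Vale.Agent.Lib.P254
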