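import Vale.Agent.Lib.P254.Lift

/-!
Radial integration formula for homogeneous functions on a convex body containing the origin.
-/

open MeasureTheory Set
open scoped Pointwise

namespace Vale.Agent.Lib.P254

variable {κ : Type*} [Fintype κ]

/-- homogeneity of degree `q` -/
def Homog (H : (κ → ℝ) → ℝ) (q : ℕ) : Prop := ∀ c : ℝ, 0 ≤ c → ∀ y, H (c • y) = c ^ q * H y

theorem setIntegral_smul_pos {H : (κ → ℝ) → ℝ} {q : ℕ} (hH : Homog H q) (K : Set (κ → ℝ))
    {c : ℝ} (hc : 0 < c) :
    ∫ y in c • K, H y = c ^ (Fintype.card κ + q) * ∫ y in K, H y := by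
  have h := Measure.setIntegral_comp_smul_of_pos (volume : Measure (κ → ℝ)) H K hc
  rw [Module.finrank_fintype_fun_eq_card] at h
  have h2 : ∫ x in K, H (c • x) = c ^ q * ∫ y in K, H y := by
    rw [← integral_const_mul]
    exact setIntegral_congr_fun₀' hc hH K
  rw [h2, smul_eq_mul] at h
  have hp : c ^ Fintype.card κ ≠ 0 := pow_ne_zero _ hc.ne'
  rw [pow_add]
  field_simp at h ⊢
  linarith
where
  setIntegral_congr_fun₀' {c : ℝ} (hc : 0 < c) (hH : Homog H q) (K : Set (κ → ℝ)) :
      ∫ x in K, H (c • x) = ∫ x in K, c ^ q * H x :=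
    integral_congr_ae (Filter.Eventually.of_forall (fun y => hH c hc.le y))

theorem setIntegral_smul_zero [Nonempty κ] (H : (κ → ℝ) → ℝ) {K : Set (κ → ℝ)} (hne : K.Nonempty) :
    ∫ y in (0 : ℝ) • K, H y = 0 := by
  rw [zero_smul_set hne]
  have : (volume : Measure (κ → ℝ)) (0 : Set (κ → ℝ)) = 0 := by
    show volume ({0} : Set (κ → ℝ)) = 0
    exact measure_singleton _
  exact setIntegral_measure_zero _ this

theorem setIntegral_smul_Icc [Nonempty κ] {H : (κ → ℝ) → ℝ} {q : ℕ} (hH : Homog H q)
    {K : Set (κ → ℝ)} (hne : K.Nonempty) {c : ℝ} (hc : 0 ≤ c) :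
    ∫ y in c • K, H y = c ^ (Fintype.card κ + q) * ∫ y in K, H y := by
  rcases hc.eq_or_lt with rfl | hc'
  · rw [setIntegral_smul_zero H hne, zero_pow, zero_mul]
    have : 0 < Fintype.card κ := Fintype.card_pos
    omega
  · exact setIntegral_smul_pos hH K hc'

/-- **Radial lifting formula.** -/
theorem radial_lift [Nonempty κ] {K : Set (κ → ℝ)} (hK : IsCompact K) (hc : Convex ℝ K)
    (h0 : (0 : κ → ℝ) ∈ K) {H : (κ → ℝ) → ℝ} {q : ℕ} (hH : Homog H q) (hHc : Continuous H)
    {ψ : ℝ → ℝ} (hψ : Continuous ψ) :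
    ∫ y in K, H y * (∫ s in (lev K y)..1, ψ s) =
      (∫ s in (0 : ℝ)..1, ψ s * s ^ (Fintype.card κ + q)) * ∫ y in K, H y := by
  classical
  set T := levelSet K with hT
  have hTc : IsCompact T := isCompact_levelSet hK
  have hTm : MeasurableSet T := hTc.isClosed.measurableSet
  set f : (κ → ℝ) × ℝ → ℝ := fun p => H p.1 * ψ p.2 with hf
  have hfc : Continuous f := (hHc.comp continuous_fst).mul (hψ.comp continuous_snd)
  have hint : Integrable (T.indicator f) ((volume : Measure (κ → ℝ)).prod (volume : Measure ℝ)) := by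
    have : IntegrableOn f T ((volume : Measure (κ → ℝ)).prod (volume : Measure ℝ)) :=
      hfc.continuousOn.integrableOn_compact hTc
    exact this.integrable_indicator hTm
  have hswap := integral_integral_swap (f := fun y s => T.indicator f (y, s))
    (μ := (volume : Measure (κ → ℝ))) (ν := (volume : Measure ℝ)) hint
  -- left side
  have hL : ∀ y, ∫ s, T.indicator f (y, s) =
      K.indicator (fun y => H y * (∫ s in (lev K y)..1, ψ s)) y := by
    intro y
    by_cases hy : y ∈ K
    · rw [indicator_of_mem hy]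
      have hl0 := lev_nonneg hK hy
      have hl1 := lev_le_one hK hy
      have : (fun s => T.indicator f (y, s)) = (Icc (lev K y) 1).indicator (fun s => H y * ψ s) := by
        ext s
        by_cases hs : s ∈ Icc (lev K y) 1
        · rw [indicator_of_mem hs, indicator_of_mem]
          refine ⟨⟨hl0.trans hs.1, hs.2⟩, ?_⟩
          exact (mem_smul_iff_lev_le hK hc h0 hy ⟨hl0.trans hs.1, hs.2⟩).2 hs.1
        · rw [indicator_of_notMem hs, indicator_of_notMem]
          rintro ⟨hs1, hs2⟩
          exact hs ⟨(mem_smul_iff_lev_le hK hc h0 hy hs1).1 hs2, hs1.2⟩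
      rw [this, integral_indicator measurableSet_Icc, integral_const_mul,
        intervalIntegral.integral_of_le hl1, integral_Icc_eq_integral_Ioc]
    · rw [indicator_of_notMem hy]
      have : (fun s => T.indicator f (y, s)) = fun _ => 0 := by
        ext s
        rw [indicator_of_notMem]
        rintro ⟨hs1, hs2⟩
        exact hy (mem_of_mem_smul hc h0 hs1 hs2)
      rw [this, integral_zero]
  -- right side
  have hR : ∀ s, ∫ y, T.indicator f (y, s) =
      (Ioc (0 : ℝ) 1).indicator (fun s => ψ s * s ^ (Fintype.card κ + q)) s * ∫ y in K, H y := by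
    intro s
    by_cases hs : s ∈ Icc (0 : ℝ) 1
    · have hm : MeasurableSet (s • K) := (hK.smul s).isClosed.measurableSet
      have : (fun y => T.indicator f (y, s)) = (s • K).indicator (fun y => ψ s * H y) := by
        ext y
        by_cases hy : y ∈ s • K
        · rw [indicator_of_mem hy, indicator_of_mem (show (y, s) ∈ T from ⟨hs, hy⟩)]
          simp [hf, mul_comm]
        · rw [indicator_of_notMem hy, indicator_of_notMem]
          exact fun h => hy h.2
      rw [this, integral_indicator hm, integral_const_mul, setIntegral_smul_Icc hH ⟨0, h0⟩ hs.1]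
      rcases hs.1.eq_or_lt with rfl | hs0
      · have hp : (0 : ℝ) ^ (Fintype.card κ + q) = 0 := by
          apply zero_pow
          have : 0 < Fintype.card κ := Fintype.card_pos
          omega
        simp [hp]
      · rw [indicator_of_mem (show s ∈ Ioc (0 : ℝ) 1 from ⟨hs0, hs.2⟩)]
        ring
    · have h1 : (fun y => T.indicator f (y, s)) = fun _ => 0 := by
        ext y
        rw [indicator_of_notMem]
        exact fun h => hs h.1
      have h2 : s ∉ Ioc (0 : ℝ) 1 := fun h => hs ⟨h.1.le, h.2⟩
      rw [h1, integral_zero, indicator_of_notMem h2]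
      simp
  calc ∫ y in K, H y * (∫ s in (lev K y)..1, ψ s)
      = ∫ y, K.indicator (fun y => H y * (∫ s in (lev K y)..1, ψ s)) y := by
        rw [integral_indicator hK.isClosed.measurableSet]
    _ = ∫ y, ∫ s, T.indicator f (y, s) := by simp_rw [hL]
    _ = ∫ s, ∫ y, T.indicator f (y, s) := hswap
    _ = ∫ s, (Ioc (0 : ℝ) 1).indicator (fun s => ψ s * s ^ (Fintype.card κ + q)) s
          * ∫ y in K, H y := by
        simp_rw [hR]
    _ = (∫ s in (0 : ℝ)..1, ψ s * s ^ (Fintype.card κ + q)) * ∫ y in K, H y := by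
        rw [integral_mul_const, integral_indicator measurableSet_Ioc,
          intervalIntegral.integral_of_le zero_le_one]

end Vale.Agent.Lib.P254
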