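import Vale.Agent.Lib.P254.Kls
import Vale.Agent.Lib.P254.Affine

/-!
The standard simplex: geometry and moments.
-/

open MeasureTheory Set Matrix
open scoped Pointwise Nat Matrix

namespace Vale.Agent.Lib.P254

variable {ι : Type*} [Fintype ι]

theorem mem_unitSimplex {x : ι → ℝ} : x ∈ unitSimplex ι ↔ (∀ i, 0 ≤ x i) ∧ ∑ i, x i ≤ 1 := Iff.rfl

theorem zero_mem_unitSimplex : (0 : ι → ℝ) ∈ unitSimplex ι := by
  simp [unitSimplex]

theorem convex_unitSimplex : Convex ℝ (unitSimplex ι) := by
  intro x hx y hy α β hα hβ hαβ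
  refine ⟨fun i => ?_, ?_⟩
  · simp only [Pi.add_apply, Pi.smul_apply, smul_eq_mul]
    have := hx.1 i
    have := hy.1 i
    positivity
  · simp only [Pi.add_apply, Pi.smul_apply, smul_eq_mul, Finset.sum_add_distrib, ← Finset.mul_sum]
    nlinarith [hx.2, hy.2]

theorem isCompact_unitSimplex : IsCompact (unitSimplex ι) := by
  have hsub : unitSimplex ι ⊆ Set.pi univ (fun _ => Icc (0 : ℝ) 1) := by
    intro x hx i _
    refine ⟨hx.1 i, ?_⟩
    have h1 : x i ≤ ∑ j, x j :=
      Finset.single_le_sum (fun j _ => hx.1 j) (Finset.mem_univ i)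
    exact h1.trans hx.2
  refine (isCompact_univ_pi (fun _ => isCompact_Icc)).of_isClosed_subset ?_ hsub
  have h1 : unitSimplex ι = (⋂ i, {x : ι → ℝ | 0 ≤ x i}) ∩ {x | ∑ i, x i ≤ 1} := by
    ext x
    simp [unitSimplex]
  rw [h1]
  refine (isClosed_iInter (fun i => isClosed_le continuous_const (continuous_apply i))).inter ?_
  exact isClosed_le (by fun_prop) continuous_const

theorem interior_unitSimplex_nonempty : (interior (unitSimplex ι)).Nonempty := by
  set a : ℝ := (Fintype.card ι : ℝ)
  have ha : 0 ≤ a := Nat.cast_nonneg _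
  let U : Set (ι → ℝ) := (⋂ i, {x : ι → ℝ | 0 < x i}) ∩ {x | ∑ i, x i < 1}
  have hU : IsOpen U := by
    refine (isOpen_iInter_of_finite (fun i => isOpen_lt continuous_const (continuous_apply i))).inter ?_
    exact isOpen_lt (by fun_prop) continuous_const
  have hsub : U ⊆ unitSimplex ι := by
    rintro x ⟨h1, h2⟩
    simp only [mem_iInter, mem_ofPred_eq] at h1
    exact ⟨fun i => (h1 i).le, le_of_lt h2⟩
  refine ⟨fun _ => 1 / (a + 2), interior_maximal hsub hU ⟨?_, ?_⟩⟩
  · simp only [mem_iInter, mem_ofPred_eq]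
    intro _
    positivity
  · simp only [mem_ofPred_eq, Finset.sum_const, Finset.card_univ, nsmul_eq_mul]
    have : a * (1 / (a + 2)) < 1 := by
      rw [mul_one_div, div_lt_one (by positivity)]
      linarith
    exact this

theorem mem_smul_unitSimplex {s : ℝ} (hs : 0 ≤ s) {x : ι → ℝ} :
    x ∈ s • unitSimplex ι ↔ (∀ i, 0 ≤ x i) ∧ ∑ i, x i ≤ s := by
  constructor
  · rintro ⟨y, hy, rfl⟩
    refine ⟨fun i => ?_, ?_⟩
    · simp only [Pi.smul_apply, smul_eq_mul]
      have := hy.1 i
      positivity
    · simp only [Pi.smul_apply, smul_eq_mul, ← Finset.mul_sum]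
      nlinarith [hy.2]
  · rintro ⟨h1, h2⟩
    rcases hs.eq_or_lt with rfl | hs'
    · have h3 : ∑ i, x i = 0 := le_antisymm h2 (Finset.sum_nonneg (fun i _ => h1 i))
      have h4 := (Finset.sum_eq_zero_iff_of_nonneg (fun i _ => h1 i)).1 h3
      refine ⟨0, zero_mem_unitSimplex, ?_⟩
      ext i
      simp [h4 i (Finset.mem_univ i)]
    · refine ⟨s⁻¹ • x, ⟨fun i => ?_, ?_⟩, ?_⟩
      · simp only [Pi.smul_apply, smul_eq_mul]
        have := h1 i
        positivity
      · simp only [Pi.smul_apply, smul_eq_mul, ← Finset.mul_sum]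
        rw [inv_mul_le_iff₀ hs']
        linarith
      · simp only [smul_smul]
        rw [mul_inv_cancel₀ hs'.ne', one_smul]

theorem lev_unitSimplex {x : ι → ℝ} (hx : x ∈ unitSimplex ι) : lev (unitSimplex ι) x = ∑ i, x i := by
  apply IsLeast.csInf_eq
  have h0 : 0 ≤ ∑ i, x i := Finset.sum_nonneg (fun i _ => hx.1 i)
  refine ⟨⟨⟨h0, hx.2⟩, (mem_smul_unitSimplex h0).2 ⟨hx.1, le_refl _⟩⟩, ?_⟩
  rintro s ⟨hs, hxs⟩
  exact ((mem_smul_unitSimplex hs.1).1 hxs).2

section moments

variable [Nonempty ι]

theorem sum_moment_one : ∫ x in unitSimplex ι, (∑ i, x i) =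
    ((Fintype.card ι : ℝ) / ((Fintype.card ι : ℝ) + 1)) * vol (unitSimplex ι) := by
  have hK := isCompact_unitSimplex (ι := ι)
  have h1 := integral_mul_one_sub_lev hK convex_unitSimplex zero_mem_unitSimplex
    (homog_one (ι := ι)) continuous_const
  simp only [one_mul, vol_eq_integral] at h1
  have h2 : ∫ y in unitSimplex ι, (1 - lev (unitSimplex ι) y) =
      vol (unitSimplex ι) - ∫ x in unitSimplex ι, (∑ i, x i) := by
    have i0 : IntegrableOn (fun _ : ι → ℝ => (1 : ℝ)) (unitSimplex ι) :=
      integrableOn_cont hK continuous_const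
    rw [← vol_eq_integral (unitSimplex ι), ← integral_sub i0 (integrableOn_cont hK (by fun_prop))]
    refine setIntegral_congr_fun hK.isClosed.measurableSet (fun y hy => ?_)
    simp only [lev_unitSimplex hy]
  rw [h2] at h1
  have h3 : ((Fintype.card ι : ℝ) + 1) ≠ 0 := by positivity
  push_cast at h1
  simp only [add_zero] at h1
  field_simp at h1 ⊢
  linarith

theorem sum_moment_two : ∫ x in unitSimplex ι, (∑ i, x i) ^ 2 =
    ((Fintype.card ι : ℝ) / ((Fintype.card ι : ℝ) + 2)) * vol (unitSimplex ι) := by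
  have hK := isCompact_unitSimplex (ι := ι)
  have h1 := integral_mul_one_sub_lev_sq hK convex_unitSimplex zero_mem_unitSimplex
    (homog_one (ι := ι)) continuous_const
  simp only [one_mul, vol_eq_integral] at h1
  have h2 : ∫ y in unitSimplex ι, (1 - lev (unitSimplex ι) y ^ 2) =
      vol (unitSimplex ι) - ∫ x in unitSimplex ι, (∑ i, x i) ^ 2 := by
    have i0 : IntegrableOn (fun _ : ι → ℝ => (1 : ℝ)) (unitSimplex ι) :=
      integrableOn_cont hK continuous_const
    rw [← vol_eq_integral (unitSimplex ι), ← integral_sub i0 (integrableOn_cont hK (by fun_prop))]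
    refine setIntegral_congr_fun hK.isClosed.measurableSet (fun y hy => ?_)
    simp only [lev_unitSimplex hy]
  rw [h2] at h1
  have h3 : ((Fintype.card ι : ℝ) + 2) ≠ 0 := by positivity
  push_cast at h1
  simp only [add_zero] at h1
  field_simp at h1 ⊢
  linarith

theorem coord_sum_moment (j : ι) : ∫ x in unitSimplex ι, x j * (∑ i, x i) =
    (((Fintype.card ι : ℝ) + 1) / ((Fintype.card ι : ℝ) + 2)) * ∫ x in unitSimplex ι, x j := by
  have hK := isCompact_unitSimplex (ι := ι)
  have h1 := integral_mul_one_sub_lev hK convex_unitSimplex zero_mem_unitSimplex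
    (homog_coord j) (continuous_apply j)
  have h2 : ∫ y in unitSimplex ι, y j * (1 - lev (unitSimplex ι) y) =
      (∫ x in unitSimplex ι, x j) - ∫ x in unitSimplex ι, x j * (∑ i, x i) := by
    have i0 : IntegrableOn (fun x : ι → ℝ => x j) (unitSimplex ι) :=
      integrableOn_cont hK (by fun_prop)
    rw [← integral_sub i0 (integrableOn_cont hK (by fun_prop))]
    refine setIntegral_congr_fun hK.isClosed.measurableSet (fun y hy => ?_)
    simp only [lev_unitSimplex hy]
    ring
  rw [h2] at h1
  have h3 : ((Fintype.card ι : ℝ) + 2) ≠ 0 := by positivity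
  push_cast at h1
  have h4 : ((Fintype.card ι : ℝ) + 1 + 1) ≠ 0 := by positivity
  field_simp at h1 ⊢
  linarith

end moments

variable [DecidableEq ι]

/-- The linear part of the affine symmetry of the simplex exchanging `0` and `e_i`. -/
def swapMat (i : ι) : Matrix ι ι ℝ :=
  1 + Matrix.replicateCol Unit (-(Pi.single i (1 : ℝ) : ι → ℝ)) *
    Matrix.replicateRow Unit (((fun _ => (1 : ℝ)) : ι → ℝ) + (Pi.single i (1 : ℝ) : ι → ℝ))

theorem swapMat_det (i : ι) : (swapMat i).det = -1 := by
  unfold swapMat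
  rw [det_one_add_replicateCol_mul_replicateRow]
  simp

theorem swapMat_apply (i : ι) (x : ι → ℝ) :
    affMap (swapMat i) (Pi.single i 1) x = Function.update x i (1 - ∑ j, x j) := by
  ext k
  simp only [affMap, swapMat, Pi.add_apply, Matrix.add_mulVec, Matrix.one_mulVec]
  rw [← Matrix.mulVec_mulVec]
  by_cases hk : k = i
  · subst hk
    simp [mulVec, dotProduct]
    have h2 : ∑ j, (1 + (Pi.single k (1 : ℝ) : ι → ℝ) j) * x j = x k + ∑ j, x j := by
      simp_rw [add_mul, one_mul]
      rw [Finset.sum_add_distrib, add_comm]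
      simp [Pi.single_apply]
    rw [h2]
    ring
  · simp [mulVec, dotProduct, hk, Function.update_of_ne, Pi.single_apply]

theorem swap_image (i : ι) :
    affMap (swapMat i) (Pi.single i 1) '' unitSimplex ι = unitSimplex ι := by
  have key : ∀ x ∈ unitSimplex ι, affMap (swapMat i) (Pi.single i 1) x ∈ unitSimplex ι := by
    intro x hx
    rw [swapMat_apply]
    constructor
    · intro k
      by_cases hk : k = i
      · subst hk
        simpa using hx.2
      · simpa [Function.update_of_ne hk] using hx.1 k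
    · rw [Finset.sum_update_of_mem (Finset.mem_univ i)]
      have h1 : ∑ j ∈ Finset.univ \ {i}, x j = ∑ j, x j - x i := by
        rw [← Finset.sum_sdiff (Finset.subset_univ {i})]
        simp
      rw [h1]
      linarith [hx.1 i]
  have inv : ∀ x, affMap (swapMat i) (Pi.single i 1) (affMap (swapMat i) (Pi.single i 1) x) = x := by
    intro x
    rw [swapMat_apply, swapMat_apply]
    ext k
    by_cases hk : k = i
    · subst hk
      simp only [Function.update_self]
      rw [Finset.sum_update_of_mem (Finset.mem_univ k)]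
      have h1 : ∑ j ∈ Finset.univ \ {k}, x j = ∑ j, x j - x k := by
        rw [← Finset.sum_sdiff (Finset.subset_univ {k})]
        simp
      rw [h1]
      ring
    · simp [Function.update_of_ne hk]
  apply Subset.antisymm
  · rintro _ ⟨x, hx, rfl⟩
    exact key x hx
  · intro x hx
    exact ⟨_, key x hx, inv x⟩

theorem integral_swap (i : ι) (f : (ι → ℝ) → ℝ) :
    ∫ x in unitSimplex ι, f x = ∫ x in unitSimplex ι, f (Function.update x i (1 - ∑ j, x j)) := by
  have hdet : (swapMat i).det ≠ 0 := by
    rw [swapMat_det]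
    norm_num
  have h := integral_image_aff hdet (Pi.single i 1)
    (isCompact_unitSimplex (ι := ι)).isClosed.measurableSet f
  rw [swap_image, swapMat_det] at h
  simp only [abs_neg, abs_one, one_mul] at h
  rw [h]
  simp_rw [swapMat_apply]

section moments2

variable [Nonempty ι]

theorem simplex_first (i : ι) : ∫ x in unitSimplex ι, x i =
    vol (unitSimplex ι) / ((Fintype.card ι : ℝ) + 1) := by
  have hK := isCompact_unitSimplex (ι := ι)
  have h := integral_swap i (fun x => x i)
  simp only [Function.update_self] at h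
  have i0 : IntegrableOn (fun _ : ι → ℝ => (1 : ℝ)) (unitSimplex ι) :=
    integrableOn_cont hK continuous_const
  rw [integral_sub i0 (integrableOn_cont hK (by fun_prop)), vol_eq_integral, sum_moment_one] at h
  rw [h]
  have h3 : ((Fintype.card ι : ℝ) + 1) ≠ 0 := by positivity
  field_simp
  ring

theorem simplex_second_diag (i : ι) : ∫ x in unitSimplex ι, x i * x i =
    2 * vol (unitSimplex ι) / (((Fintype.card ι : ℝ) + 1) * ((Fintype.card ι : ℝ) + 2)) := by
  have hK := isCompact_unitSimplex (ι := ι)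
  have h := integral_swap i (fun x => x i * x i)
  simp only [Function.update_self] at h
  have hexp : ∀ x : ι → ℝ, (1 - ∑ j, x j) * (1 - ∑ j, x j) =
      1 - 2 * (∑ j, x j) + (∑ j, x j) ^ 2 := by
    intro x
    ring
  simp_rw [hexp] at h
  have i0 : IntegrableOn (fun _ : ι → ℝ => (1 : ℝ)) (unitSimplex ι) :=
    integrableOn_cont hK continuous_const
  have i1 : IntegrableOn (fun x : ι → ℝ => 2 * ∑ j, x j) (unitSimplex ι) :=
    integrableOn_cont hK (by fun_prop)
  have i2 : IntegrableOn (fun x : ι → ℝ => (∑ j, x j) ^ 2) (unitSimplex ι) :=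
    integrableOn_cont hK (by fun_prop)
  have i3 : IntegrableOn (fun x : ι → ℝ => 1 - 2 * ∑ j, x j) (unitSimplex ι) :=
    integrableOn_cont hK (by fun_prop)
  rw [integral_add i3 i2, integral_sub i0 i1, integral_const_mul, vol_eq_integral, sum_moment_one,
    sum_moment_two] at h
  rw [h]
  have h3 : ((Fintype.card ι : ℝ) + 1) ≠ 0 := by positivity
  have h4 : ((Fintype.card ι : ℝ) + 2) ≠ 0 := by positivity
  field_simp
  ring

theorem simplex_second_off {i j : ι} (hij : i ≠ j) : ∫ x in unitSimplex ι, x i * x j =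
    vol (unitSimplex ι) / (((Fintype.card ι : ℝ) + 1) * ((Fintype.card ι : ℝ) + 2)) := by
  have hK := isCompact_unitSimplex (ι := ι)
  have h := integral_swap i (fun x => x i * x j)
  simp only [Function.update_self, Function.update_of_ne hij.symm] at h
  have hexp : ∀ x : ι → ℝ, (1 - ∑ k, x k) * x j = x j - x j * ∑ k, x k := by
    intro x
    ring
  simp_rw [hexp] at h
  have i0 : IntegrableOn (fun x : ι → ℝ => x j) (unitSimplex ι) :=
    integrableOn_cont hK (by fun_prop)
  have i1 : IntegrableOn (fun x : ι → ℝ => x j * ∑ k, x k) (unitSimplex ι) :=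
    integrableOn_cont hK (by fun_prop)
  rw [integral_sub i0 i1, coord_sum_moment, simplex_first] at h
  rw [h]
  have h3 : ((Fintype.card ι : ℝ) + 1) ≠ 0 := by positivity
  have h4 : ((Fintype.card ι : ℝ) + 2) ≠ 0 := by positivity
  field_simp
  ring

theorem vol_unitSimplex_pos : 0 < vol (unitSimplex ι) :=
  vol_pos isCompact_unitSimplex interior_unitSimplex_nonempty

theorem centroid_unitSimplex (i : ι) : centroid (unitSimplex ι) i =
    1 / ((Fintype.card ι : ℝ) + 1) := by
  simp only [centroid]
  rw [simplex_first]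
  have := (vol_unitSimplex_pos (ι := ι)).ne'
  have h3 : ((Fintype.card ι : ℝ) + 1) ≠ 0 := by positivity
  field_simp

theorem cov_unitSimplex (i j : ι) : covMatrix (unitSimplex ι) i j =
    ((if i = j then (Fintype.card ι : ℝ) + 1 else 0) - 1) /
      (((Fintype.card ι : ℝ) + 1) ^ 2 * ((Fintype.card ι : ℝ) + 2)) := by
  have hv := (vol_unitSimplex_pos (ι := ι)).ne'
  rw [cov_apply isCompact_unitSimplex hv, centroid_unitSimplex, centroid_unitSimplex]
  have h3 : ((Fintype.card ι : ℝ) + 1) ≠ 0 := by positivity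
  have h4 : ((Fintype.card ι : ℝ) + 2) ≠ 0 := by positivity
  by_cases hij : i = j
  · subst hij
    rw [simplex_second_diag, if_pos rfl]
    field_simp
    ring
  · rw [simplex_second_off hij, if_neg hij]
    field_simp
    ring

/-- The explicit inverse of the covariance matrix of the simplex. -/
noncomputable def covInv (ι : Type*) [Fintype ι] [DecidableEq ι] : Matrix ι ι ℝ :=
  Matrix.of fun i j => ((Fintype.card ι : ℝ) + 1) * ((Fintype.card ι : ℝ) + 2) *
    ((if i = j then 1 else 0) + 1)

theorem covInv_spec : covMatrix (unitSimplex ι) * covInv ι = 1 := by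
  ext i j
  simp only [Matrix.mul_apply, cov_unitSimplex, covInv, Matrix.of_apply]
  have h3 : ((Fintype.card ι : ℝ) + 1) ≠ 0 := by positivity
  have h4 : ((Fintype.card ι : ℝ) + 2) ≠ 0 := by positivity
  have hterm : ∀ k : ι, ((if i = k then (Fintype.card ι : ℝ) + 1 else 0) - 1) /
      (((Fintype.card ι : ℝ) + 1) ^ 2 * ((Fintype.card ι : ℝ) + 2)) *
      (((Fintype.card ι : ℝ) + 1) * ((Fintype.card ι : ℝ) + 2) * ((if k = j then 1 else 0) + 1)) =
      ((if i = k then (Fintype.card ι : ℝ) + 1 else 0) - 1) * ((if k = j then 1 else 0) + 1) /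
        ((Fintype.card ι : ℝ) + 1) := by
    intro k
    field_simp
  simp_rw [hterm]
  rw [← Finset.sum_div]
  have hsum : ∑ k : ι, ((if i = k then (Fintype.card ι : ℝ) + 1 else 0) - 1) *
      ((if k = j then 1 else 0) + 1) =
      ((Fintype.card ι : ℝ) + 1) * (if i = j then 1 else 0) := by
    have hexp : ∀ k : ι, ((if i = k then (Fintype.card ι : ℝ) + 1 else 0) - 1) *
        ((if k = j then (1 : ℝ) else 0) + 1) =
        (if i = k then (Fintype.card ι : ℝ) + 1 else 0) * (if k = j then (1 : ℝ) else 0) +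
        (if i = k then (Fintype.card ι : ℝ) + 1 else 0) - (if k = j then (1 : ℝ) else 0) - 1 := by
      intro k
      ring
    simp_rw [hexp]
    rw [Finset.sum_sub_distrib, Finset.sum_sub_distrib, Finset.sum_add_distrib]
    simp only [Finset.sum_const, Finset.card_univ, nsmul_eq_mul, mul_one, Finset.sum_ite_eq',
      Finset.mem_univ, if_true, Finset.sum_ite_eq]
    have : ∑ k : ι, (if i = k then (Fintype.card ι : ℝ) + 1 else 0) * (if k = j then (1 : ℝ) else 0)
        = ((Fintype.card ι : ℝ) + 1) * (if i = j then 1 else 0) := by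
      rw [Finset.sum_eq_single i]
      · simp
      · intro k _ hk
        simp [hk.symm]
      · simp
    rw [this]
    ring
  rw [hsum, Matrix.one_apply]
  field_simp

theorem covInv_eq : (covMatrix (unitSimplex ι))⁻¹ = covInv ι := inv_eq_right_inv covInv_spec

end moments2

end Vale.Agent.Lib.P254
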